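import Vale.Agent.Lib.P064.Res

namespace Vale.Agent.Lib.P064

open Finset SimpleGraph

open scoped Classical

set_option linter.unusedSectionVars false

variable {V W : Type} [Fintype V] [Fintype W]

/-- `K` is closed under the arcs `R`. -/
def Closed (R : W → W → Prop) (K : Finset W) : Prop := ∀ x ∈ K, ∀ y, R x y → y ∈ K

/-- `C` is a minimal block over the closed set `K`. -/
structure IsMinBlock (R : W → W → Prop) (K C : Finset W) : Prop where
  nonempty : C.Nonempty
  disj : Disjoint K C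
  closed : Closed R (K ∪ C)
  minimal : ∀ C' : Finset W, C' ⊆ C → C'.Nonempty → C' ≠ C → ¬ Closed R (K ∪ C')

/-- Edges of `F` inside `T`. -/
noncomputable def inEdges (F : SimpleGraph W) (T : Finset W) : Finset (Sym2 W) :=
  F.edgeFinset.filter (fun e => ∀ v ∈ e, v ∈ T)

/-- Edges of `F` not inside `T`. -/
noncomputable def outEdges (F : SimpleGraph W) (T : Finset W) : Finset (Sym2 W) :=
  F.edgeFinset.filter (fun e => ¬ ∀ v ∈ e, v ∈ T)

/-- Edges of `F` inside `K ∪ C` and not inside `K`. -/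
noncomputable def blockEdges (F : SimpleGraph W) (K C : Finset W) : Finset (Sym2 W) :=
  F.edgeFinset.filter (fun e => (∀ v ∈ e, v ∈ K ∪ C) ∧ ¬ ∀ v ∈ e, v ∈ K)

/-- Attachment set of `C` in `K`. -/
noncomputable def attach (F : SimpleGraph W) (K C : Finset W) : Finset W :=
  K.filter (fun z => ∃ c ∈ C, F.Adj z c)

theorem outEdges_card_split (F : SimpleGraph W) (K C : Finset W) :
    (outEdges F K).card = (blockEdges F K C).card + (outEdges F (K ∪ C)).card := by
  rw [← Finset.card_union_of_disjoint]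
  · congr 1
    ext e
    simp only [outEdges, blockEdges, Finset.mem_filter, Finset.mem_union (s := Finset.filter _ _)]
    constructor
    · rintro ⟨h1, h2⟩
      by_cases h3 : ∀ v ∈ e, v ∈ K ∪ C
      · exact Or.inl ⟨h1, h3, h2⟩
      · exact Or.inr ⟨h1, h3⟩
    · rintro (⟨h1, _, h2⟩ | ⟨h1, h3⟩)
      · exact ⟨h1, h2⟩
      · exact ⟨h1, fun h => h3 fun v hv => Finset.mem_union_left _ (h v hv)⟩
  · rw [Finset.disjoint_left]
    intro e he he'
    exact (Finset.mem_filter.1 he').2 (Finset.mem_filter.1 he).2.1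

theorem exists_arc {R : W → W → Prop} {K C : Finset W} (hK : Closed R K) (hb : IsMinBlock R K C)
    {S : Finset W} (hS : S ⊆ C) (hne : S.Nonempty) (hSC : S ≠ C) :
    ∃ u ∈ S, ∃ v ∈ C, v ∉ S ∧ R u v := by
  have h := hb.minimal S hS hne hSC
  unfold Closed at h
  push Not at h
  obtain ⟨u, hu, v, huv, hv⟩ := h
  have hvK : v ∉ K := fun hvK => hv (Finset.mem_union_left _ hvK)
  have huS : u ∈ S := by
    rcases Finset.mem_union.1 hu with huK | huS
    · exact absurd (hK u huK v huv) hvK
    · exact huS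
  have hvC : v ∈ C := by
    have := hb.closed u (Finset.mem_union_right _ (hS huS)) v huv
    rcases Finset.mem_union.1 this with h1 | h1
    · exact absurd h1 hvK
    · exact h1
  exact ⟨u, huS, v, hvC, fun hvS => hv (Finset.mem_union_right _ hvS), huv⟩

theorem growth_aux {R : W → W → Prop} {K C : Finset W} (hK : Closed R K)
    (hb : IsMinBlock R K C) {Φ : Finset (W → V)} {out : V → Finset V} {D : ℕ}
    (hout : ∀ y, (out y).card ≤ D) (hΦ : ∀ φ ∈ Φ, ∀ a b, R a b → φ b ∈ out (φ a)) :
    ∀ (d : ℕ) (S : Finset W), S ⊆ C → S.Nonempty → (C \ S).card = d →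
      (Φ.image (res (K ∪ C))).card ≤ D ^ d * (Φ.image (res (K ∪ S))).card := by
  intro d
  induction d with
  | zero =>
    intro S hS _ hd
    have : C ⊆ S := by
      rw [Finset.card_eq_zero, Finset.sdiff_eq_empty_iff_subset] at hd
      exact hd
    have hSC : S = C := Finset.Subset.antisymm hS this
    rw [hSC]
    simp
  | succ d ih =>
    intro S hS hne hd
    have hSC : S ≠ C := by
      rintro rfl
      simp at hd
    obtain ⟨u, hu, v, hv, hvS, huv⟩ := exists_arc hK hb hS hne hSC
    have hS' : insert v S ⊆ C := Finset.insert_subset hv hS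
    have hd' : (C \ insert v S).card = d := by
      have : C \ insert v S = (C \ S).erase v := by
        ext w
        simp only [Finset.mem_sdiff, Finset.mem_insert, Finset.mem_erase]
        tauto
      rw [this, Finset.card_erase_of_mem (Finset.mem_sdiff.2 ⟨hv, hvS⟩), hd]
      simp
    have h1 := ih (insert v S) hS' (Finset.insert_nonempty _ _) hd'
    have h2 : K ∪ insert v S = insert v (K ∪ S) := by
      ext w
      simp only [Finset.mem_union, Finset.mem_insert]
      tauto
    rw [h2] at h1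
    have h3 := card_image_res_insert_le (S := K ∪ S) (u := u) (v := v)
      (Finset.mem_union_right _ hu) (Φ := Φ) (out := out) hout
      (fun φ hφ => hΦ φ hφ u v huv)
    calc (Φ.image (res (K ∪ C))).card
        ≤ D ^ d * (Φ.image (res (insert v (K ∪ S)))).card := h1
      _ ≤ D ^ d * (D * (Φ.image (res (K ∪ S))).card) := Nat.mul_le_mul_left _ h3
      _ = D ^ (d + 1) * (Φ.image (res (K ∪ S))).card := by ring

/-- Out-steps: the members of a family agreeing on `K` and at `x` have at most `D ^ (|C|-1)`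
records on `K ∪ C`. -/
theorem growth_count {R : W → W → Prop} {K C : Finset W} (hK : Closed R K)
    (hb : IsMinBlock R K C) {Φ : Finset (W → V)} {out : V → Finset V} {D : ℕ}
    (hout : ∀ y, (out y).card ≤ D) (hΦ : ∀ φ ∈ Φ, ∀ a b, R a b → φ b ∈ out (φ a))
    {x : W} (hx : x ∈ C) (hag : ∀ φ ∈ Φ, ∀ ψ ∈ Φ, ∀ z ∈ K ∪ {x}, φ z = ψ z) :
    (Φ.image (res (K ∪ C))).card ≤ D ^ (C.card - 1) := by
  have h1 := growth_aux hK hb hout hΦ (C.card - 1) {x} (Finset.singleton_subset_iff.2 hx)
    (Finset.singleton_nonempty _) (by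
      rw [Finset.sdiff_singleton_eq_erase, Finset.card_erase_of_mem hx])
  have h2 := card_image_res_le_one hag
  calc (Φ.image (res (K ∪ C))).card ≤ D ^ (C.card - 1) * (Φ.image (res (K ∪ {x}))).card := h1
    _ ≤ D ^ (C.card - 1) * 1 := Nat.mul_le_mul_left _ h2
    _ = D ^ (C.card - 1) := Nat.mul_one _

theorem inEdges_mono (F : SimpleGraph W) {S T : Finset W} (h : S ⊆ T) :
    inEdges F S ⊆ inEdges F T := by
  intro e he
  have he' := Finset.mem_filter.1 he
  exact Finset.mem_filter.2 ⟨he'.1, fun v hv => h (he'.2 v hv)⟩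

theorem edges_aux {F : SimpleGraph W} {R : W → W → Prop} {K C : Finset W} (hK : Closed R K)
    (hb : IsMinBlock R K C) (hRF : ∀ a b, R a b → F.Adj a b) :
    ∀ (d : ℕ) (S : Finset W), S ⊆ C → S.Nonempty → (C \ S).card = d →
      d + (inEdges F S).card ≤ (inEdges F C).card := by
  intro d
  induction d with
  | zero =>
    intro S hS _ _
    rw [zero_add]
    exact Finset.card_le_card (inEdges_mono F hS)
  | succ d ih =>
    intro S hS hne hd
    have hSC : S ≠ C := by
      rintro rfl
      simp at hd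
    obtain ⟨u, hu, v, hv, hvS, huv⟩ := exists_arc hK hb hS hne hSC
    have hS' : insert v S ⊆ C := Finset.insert_subset hv hS
    have hd' : (C \ insert v S).card = d := by
      have : C \ insert v S = (C \ S).erase v := by
        ext w
        simp only [Finset.mem_sdiff, Finset.mem_insert, Finset.mem_erase]
        tauto
      rw [this, Finset.card_erase_of_mem (Finset.mem_sdiff.2 ⟨hv, hvS⟩), hd]
      simp
    have h1 := ih (insert v S) hS' (Finset.insert_nonempty _ _) hd'
    have h2 : (inEdges F S).card + 1 ≤ (inEdges F (insert v S)).card := by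
      have h3 : s(u, v) ∉ inEdges F S := by
        intro h
        exact hvS ((Finset.mem_filter.1 h).2 v (Sym2.mem_mk_right _ _))
      rw [← Finset.card_insert_of_notMem h3]
      refine Finset.card_le_card ?_
      intro e he
      rcases Finset.mem_insert.1 he with rfl | he
      · refine Finset.mem_filter.2 ⟨?_, ?_⟩
        · rw [mem_edgeFinset]
          exact hRF u v huv
        · intro w hw
          rcases Sym2.mem_iff.1 hw with rfl | rfl
          · exact Finset.mem_insert_of_mem hu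
          · exact Finset.mem_insert_self _ _
      · exact inEdges_mono F (Finset.subset_insert _ _) he
    omega

/-- A minimal block has at least `|C| - 1 + |attach|` edges. -/
theorem card_blockEdges_ge {F : SimpleGraph W} {R : W → W → Prop} {K C : Finset W}
    (hK : Closed R K) (hb : IsMinBlock R K C) (hRF : ∀ a b, R a b → F.Adj a b) :
    C.card - 1 + (attach F K C).card ≤ (blockEdges F K C).card := by
  obtain ⟨x, hx⟩ := hb.nonempty
  have h1 := edges_aux hK hb hRF (C.card - 1) {x} (Finset.singleton_subset_iff.2 hx)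
    (Finset.singleton_nonempty _) (by
      rw [Finset.sdiff_singleton_eq_erase, Finset.card_erase_of_mem hx])
  have h2 : C.card - 1 ≤ (inEdges F C).card := by omega
  have hdisj : ∀ z, z ∈ K → z ∉ C := fun z hz hzC =>
    Finset.disjoint_left.1 hb.disj hz hzC
  choose! c hcC hcadj using (fun z (hz : z ∈ attach F K C) => (Finset.mem_filter.1 hz).2)
  set T : Finset (Sym2 W) := (attach F K C).image (fun z => s(z, c z)) with hT
  have hTcard : T.card = (attach F K C).card := by
    rw [hT]
    refine Finset.card_image_of_injOn ?_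
    intro z hz z' hz' h
    have hz1 : z ∈ K := (Finset.mem_filter.1 (Finset.mem_coe.1 hz)).1
    have hz2 : z' ∈ K := (Finset.mem_filter.1 (Finset.mem_coe.1 hz')).1
    rcases Sym2.eq_iff.1 h with ⟨h1, _⟩ | ⟨h1, _⟩
    · exact h1
    · exact absurd (hcC z' (Finset.mem_coe.1 hz')) (h1 ▸ hdisj z hz1)
  have hdisj2 : Disjoint (inEdges F C) T := by
    rw [Finset.disjoint_left]
    intro e he heT
    obtain ⟨z, hz, rfl⟩ := Finset.mem_image.1 heT
    have := (Finset.mem_filter.1 he).2 z (Sym2.mem_mk_left _ _)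
    exact hdisj z (Finset.mem_filter.1 hz).1 this
  have hsub : inEdges F C ∪ T ⊆ blockEdges F K C := by
    intro e he
    rcases Finset.mem_union.1 he with he | he
    · have he' := Finset.mem_filter.1 he
      refine Finset.mem_filter.2 ⟨he'.1, fun v hv => Finset.mem_union_right _ (he'.2 v hv), ?_⟩
      intro hall
      induction e using Sym2.ind with
      | _ a b =>
        have ha : a ∈ C := he'.2 a (Sym2.mem_mk_left _ _)
        exact hdisj a (hall a (Sym2.mem_mk_left _ _)) ha
    · obtain ⟨z, hz, rfl⟩ := Finset.mem_image.1 he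
      refine Finset.mem_filter.2 ⟨?_, ?_, ?_⟩
      · rw [mem_edgeFinset]
        exact hcadj z hz
      · intro v hv
        rcases Sym2.mem_iff.1 hv with rfl | rfl
        · exact Finset.mem_union_left _ (Finset.mem_filter.1 hz).1
        · exact Finset.mem_union_right _ (hcC z hz)
      · intro hall
        exact hdisj _ (hall (c z) (Sym2.mem_mk_right _ _)) (hcC z hz)
  calc C.card - 1 + (attach F K C).card ≤ (inEdges F C).card + T.card := by
        rw [hTcard]; omega
    _ = (inEdges F C ∪ T).card := (Finset.card_union_of_disjoint hdisj2).symm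
    _ ≤ _ := Finset.card_le_card hsub

/-- A maximal family with pairwise disjoint images of `C`. -/
theorem exists_hitting_family {C : Finset W} (hC : C.Nonempty) (Φ : Finset (W → V)) :
    ∃ 𝓢 ⊆ Φ, (∀ φ ∈ 𝓢, ∀ ψ ∈ 𝓢, φ ≠ ψ → Disjoint (C.image φ) (C.image ψ)) ∧
      ∀ φ ∈ Φ, ∃ x ∈ C, φ x ∈ 𝓢.biUnion (fun ψ => C.image ψ) := by
  set P : Finset (Finset (W → V)) := Φ.powerset.filter
    (fun 𝓢 => ∀ φ ∈ 𝓢, ∀ ψ ∈ 𝓢, φ ≠ ψ → Disjoint (C.image φ) (C.image ψ)) with hP
  have hPne : P.Nonempty := ⟨∅, by simp [hP]⟩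
  obtain ⟨𝓢, h𝓢, hmax⟩ := Finset.exists_max_image P Finset.card hPne
  have h𝓢' := Finset.mem_filter.1 h𝓢
  refine ⟨𝓢, Finset.mem_powerset.1 h𝓢'.1, h𝓢'.2, ?_⟩
  intro φ hφ
  by_contra hcon
  push Not at hcon
  have hφ𝓢 : φ ∉ 𝓢 := by
    intro hin
    obtain ⟨x, hx⟩ := hC
    refine hcon x hx (Finset.mem_biUnion.2 ⟨φ, hin, Finset.mem_image_of_mem _ hx⟩)
  have hdisjφ : ∀ ψ ∈ 𝓢, Disjoint (C.image φ) (C.image ψ) := by
    intro ψ hψ
    rw [Finset.disjoint_left]
    intro y hy hy'
    obtain ⟨x, hx, rfl⟩ := Finset.mem_image.1 hy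
    exact hcon x hx (Finset.mem_biUnion.2 ⟨ψ, hψ, hy'⟩)
  have hins : insert φ 𝓢 ∈ P := by
    refine Finset.mem_filter.2 ⟨Finset.mem_powerset.2 ?_, ?_⟩
    · exact Finset.insert_subset hφ (Finset.mem_powerset.1 h𝓢'.1)
    · intro a ha b hb hab
      rcases Finset.mem_insert.1 ha with ha' | ha' <;> rcases Finset.mem_insert.1 hb with hb' | hb'
      · exact absurd (ha'.trans hb'.symm) hab
      · rw [ha']
        exact hdisjφ b hb'
      · rw [hb']
        exact (hdisjφ a ha').symm
      · exact h𝓢'.2 a ha' b hb' hab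
  have := hmax _ hins
  rw [Finset.card_insert_of_notMem hφ𝓢] at this
  omega

/-- Block count: records on `K ∪ C` in terms of the size of a maximal disjoint family. -/
theorem block_records_le {R : W → W → Prop} {K C : Finset W} (hK : Closed R K)
    (hb : IsMinBlock R K C) {Φ : Finset (W → V)} {out : V → Finset V} {D : ℕ}
    (hout : ∀ y, (out y).card ≤ D) (hΦ : ∀ φ ∈ Φ, ∀ a b, R a b → φ b ∈ out (φ a))
    (hag : ∀ φ ∈ Φ, ∀ ψ ∈ Φ, ∀ z ∈ K, φ z = ψ z) {m : ℕ}
    (hm : ∀ 𝓢 ⊆ Φ, (∀ φ ∈ 𝓢, ∀ ψ ∈ 𝓢, φ ≠ ψ → Disjoint (C.image φ) (C.image ψ)) → 𝓢.card ≤ m) :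
    (Φ.image (res (K ∪ C))).card ≤ C.card * (m * C.card) * D ^ (C.card - 1) := by
  obtain ⟨𝓢, h𝓢, hdisj, hhit⟩ := exists_hitting_family hb.nonempty Φ
  set U : Finset V := 𝓢.biUnion (fun ψ => C.image ψ) with hU
  have hUcard : U.card ≤ m * C.card := by
    calc U.card ≤ ∑ ψ ∈ 𝓢, (C.image ψ).card := Finset.card_biUnion_le
      _ ≤ ∑ _ψ ∈ 𝓢, C.card := Finset.sum_le_sum (fun ψ _ => Finset.card_image_le)
      _ = 𝓢.card * C.card := by simp
      _ ≤ m * C.card := Nat.mul_le_mul_right _ (hm 𝓢 h𝓢 hdisj)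
  have hcover : Φ.image (res (K ∪ C)) ⊆ (C ×ˢ U).biUnion
      (fun p => (Φ.filter (fun φ => φ p.1 = p.2)).image (res (K ∪ C))) := by
    intro c hc
    obtain ⟨φ, hφ, rfl⟩ := Finset.mem_image.1 hc
    obtain ⟨x, hx, hxU⟩ := hhit φ hφ
    refine Finset.mem_biUnion.2 ⟨(x, φ x), Finset.mem_product.2 ⟨hx, hxU⟩, ?_⟩
    exact Finset.mem_image_of_mem _ (Finset.mem_filter.2 ⟨hφ, rfl⟩)
  have heach : ∀ p ∈ C ×ˢ U,
      ((Φ.filter (fun φ => φ p.1 = p.2)).image (res (K ∪ C))).card ≤ D ^ (C.card - 1) := by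
    intro p hp
    have hpC : p.1 ∈ C := (Finset.mem_product.1 hp).1
    refine growth_count hK hb hout (fun φ hφ => hΦ φ (Finset.mem_filter.1 hφ).1) hpC ?_
    intro φ hφ ψ hψ z hz
    have hφ' := Finset.mem_filter.1 hφ
    have hψ' := Finset.mem_filter.1 hψ
    rcases Finset.mem_union.1 hz with hz | hz
    · exact hag φ hφ'.1 ψ hψ'.1 z hz
    · rw [Finset.mem_singleton.1 hz, hφ'.2, hψ'.2]
  calc (Φ.image (res (K ∪ C))).card
      ≤ ((C ×ˢ U).biUnion
        (fun p => (Φ.filter (fun φ => φ p.1 = p.2)).image (res (K ∪ C)))).card :=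
        Finset.card_le_card hcover
    _ ≤ ∑ p ∈ C ×ˢ U, ((Φ.filter (fun φ => φ p.1 = p.2)).image (res (K ∪ C))).card :=
        Finset.card_biUnion_le
    _ ≤ ∑ _p ∈ C ×ˢ U, D ^ (C.card - 1) := Finset.sum_le_sum heach
    _ = (C.card * U.card) * D ^ (C.card - 1) := by
        simp [Finset.card_product]
    _ ≤ C.card * (m * C.card) * D ^ (C.card - 1) := by
        refine Nat.mul_le_mul_right _ (Nat.mul_le_mul_left _ hUcard)

end Vale.Agent.Lib.P064
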