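import Mathlib

namespace Vale.Agent.Lib.P064

open Real

/-- From `m! ≤ n^a M^m` to a linear bound on `m`. -/
theorem m_bound {m a n : ℕ} {M : ℝ} (hn : 1 ≤ n) (hM : 0 < M)
    (h : (m.factorial : ℝ) ≤ (n : ℝ) ^ a * M ^ m) :
    (m : ℝ) ≤ exp 2 * M + a * log n := by
  have hn' : (0 : ℝ) < n := by exact_mod_cast hn
  have hlg : 0 ≤ log n := log_natCast_nonneg n
  by_cases h1 : (m : ℝ) ≤ a * log n
  · have : 0 ≤ exp 2 * M := by positivity
    linarith
  · push Not at h1
    have hm : 0 < m := by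
      rcases Nat.eq_zero_or_pos m with rfl | h2
      · simp only [Nat.cast_zero] at h1
        have : (0 : ℝ) ≤ a * log n := by positivity
        linarith
      · exact h2
    have hm' : (0 : ℝ) < m := by exact_mod_cast hm
    have h2 := Real.pow_div_factorial_le_exp (m : ℝ) hm'.le m
    have hfac : (0 : ℝ) < m.factorial := by exact_mod_cast Nat.factorial_pos m
    rw [div_le_iff₀ hfac] at h2
    have h3 : (n : ℝ) ^ a = exp (a * log n) := by
      rw [mul_comm, Real.exp_mul, Real.exp_log hn']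
      simp
    have h4 : (n : ℝ) ^ a ≤ exp m := by
      rw [h3]
      exact exp_le_exp.2 h1.le
    have h5 : (m : ℝ) ^ m ≤ (exp 2 * M) ^ m := by
      calc (m : ℝ) ^ m ≤ exp m * m.factorial := h2
        _ ≤ exp m * ((n : ℝ) ^ a * M ^ m) := by gcongr
        _ ≤ exp m * (exp m * M ^ m) := by gcongr
        _ = (exp 2 * M) ^ m := by
          rw [mul_pow]
          have : exp 2 ^ m = exp m * exp m := by
            rw [← Real.exp_nat_mul, ← Real.exp_add]
            congr 1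
            ring
          rw [this]
          ring
    have h6 : (m : ℝ) ≤ exp 2 * M :=
      le_of_pow_le_pow_left₀ hm.ne' (by positivity) h5
    have : 0 ≤ (a : ℝ) * log n := by positivity
    linarith

/-- The real inequality closing the block step. -/
theorem block_real {s r a m D n : ℕ} {q : ℝ} (hs : 1 ≤ s) (hn : 1 ≤ n) (hq : 0 < q)
    (h1 : (m : ℝ) ≤ exp 2 * ((n : ℝ) ^ s * q ^ r) + a * log n)
    (h2 : 1 ≤ ((n : ℝ) ^ s * q ^ r) * exp ((r : ℝ) / 2 + s))
    (h3 : s - 1 + a ≤ r)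
    (h4 : (D : ℝ) ≤ 2 * log n + 2) :
    ((s * (m * s) * D ^ (s - 1) : ℕ) : ℝ)
      ≤ (4 * exp 3 * n) ^ s * ((4 * log n + 4) * q) ^ r := by
  have hlg : 0 ≤ log (n : ℝ) := log_natCast_nonneg n
  have hn' : (0 : ℝ) < n := by exact_mod_cast hn
  set M : ℝ := (n : ℝ) ^ s * q ^ r with hM
  have hMpos : 0 < M := by positivity
  set lg : ℝ := log n with hlgdef
  set L0 : ℝ := 2 * lg + 2 with hL0
  have hL01 : 1 ≤ L0 := by rw [hL0]; linarith
  set E : ℝ := exp ((r : ℝ) / 2 + s) with hE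
  have hE1 : 1 ≤ E := by
    rw [hE]
    apply one_le_exp
    positivity
  -- bound on `m`
  have h5 : (m : ℝ) ≤ M * E * (exp 2 + a * lg) := by
    have h6 : 0 ≤ (a : ℝ) * lg := by positivity
    have h7 : exp 2 * M ≤ exp 2 * M * E := le_mul_of_one_le_right (by positivity) hE1
    have h8 : (a : ℝ) * lg ≤ (a : ℝ) * lg * (M * E) := le_mul_of_one_le_right h6 h2
    calc (m : ℝ) ≤ exp 2 * M + a * lg := h1
      _ ≤ exp 2 * M * E + a * lg * (M * E) := add_le_add h7 h8
      _ = M * E * (exp 2 + a * lg) := by ring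
  have h9 : exp 2 + a * lg ≤ exp 2 * L0 ^ a := by
    have h10 : 1 + (a : ℝ) * lg ≤ (1 + lg) ^ a := one_add_mul_le_pow (by linarith) a
    have h11 : (1 + lg) ^ a ≤ L0 ^ a := by
      apply pow_le_pow_left₀ (by linarith)
      rw [hL0]; linarith
    have h12 : (1 : ℝ) ≤ exp 2 := one_le_exp (by norm_num)
    have h13 : 0 ≤ (a : ℝ) * lg := by positivity
    calc exp 2 + a * lg ≤ exp 2 * (1 + a * lg) := by nlinarith
      _ ≤ exp 2 * L0 ^ a := by
        apply mul_le_mul_of_nonneg_left (h10.trans h11) (by positivity)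
  have hD : (D : ℝ) ^ (s - 1) ≤ L0 ^ (s - 1) :=
    pow_le_pow_left₀ (Nat.cast_nonneg _) h4 _
  have hLr : L0 ^ a * L0 ^ (s - 1) ≤ L0 ^ r := by
    rw [← pow_add]
    exact pow_le_pow_right₀ hL01 (by omega)
  have hs2 : ((s : ℝ) * s) ≤ 4 ^ s := by
    have h14 : s < 2 ^ s := Nat.lt_two_pow_self
    have h15 : (s : ℝ) ≤ 2 ^ s := by exact_mod_cast h14.le
    calc (s : ℝ) * s ≤ 2 ^ s * 2 ^ s := by gcongr
      _ = 4 ^ s := by
        rw [← mul_pow]
        norm_num
  have hE2 : E ≤ 2 ^ r * exp s := by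
    rw [hE, exp_add]
    apply mul_le_mul_of_nonneg_right _ (exp_pos _).le
    have h16 : exp ((r : ℝ) / 2) = exp (1 / 2) ^ r := by
      rw [← Real.exp_nat_mul]
      congr 1
      ring
    rw [h16]
    apply pow_le_pow_left₀ (exp_pos _).le
    have h17 : exp (1 / 2 : ℝ) ^ 2 = exp 1 := by
      rw [← Real.exp_nat_mul]
      norm_num
    have h18 : exp 1 < 3 := lt_trans Real.exp_one_lt_d9 (by norm_num)
    nlinarith [exp_pos (1 / 2 : ℝ)]
  have he2 : exp 2 * exp (s : ℝ) ≤ exp 3 ^ s := by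
    rw [← Real.exp_add, ← Real.exp_nat_mul]
    apply exp_le_exp.2
    have : (1 : ℝ) ≤ s := by exact_mod_cast hs
    nlinarith
  push_cast
  calc (s : ℝ) * ((m : ℝ) * s) * (D : ℝ) ^ (s - 1)
      = ((s : ℝ) * s) * (m : ℝ) * (D : ℝ) ^ (s - 1) := by ring
    _ ≤ 4 ^ s * (M * (2 ^ r * exp s) * (exp 2 * L0 ^ a)) * L0 ^ (s - 1) := by
        have : (m : ℝ) ≤ M * (2 ^ r * exp s) * (exp 2 * L0 ^ a) := by
          refine h5.trans ?_
          have h19 : 0 ≤ exp 2 + (a : ℝ) * lg := by positivity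
          calc M * E * (exp 2 + a * lg) ≤ M * (2 ^ r * exp s) * (exp 2 + a * lg) := by gcongr
            _ ≤ M * (2 ^ r * exp s) * (exp 2 * L0 ^ a) := by gcongr
        gcongr
    _ = 4 ^ s * (exp 2 * exp (s : ℝ)) * M * (2 ^ r * (L0 ^ a * L0 ^ (s - 1))) := by ring
    _ ≤ 4 ^ s * (exp 3 ^ s) * M * (2 ^ r * L0 ^ r) := by gcongr
    _ = (4 * exp 3 * n) ^ s * ((4 * lg + 4) * q) ^ r := by
        rw [hM, mul_pow, mul_pow, mul_pow]
        have : (4 * lg + 4) = 2 * L0 := by rw [hL0]; ring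
        rw [this, mul_pow]
        ring

end Vale.Agent.Lib.P064
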