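import Vale.Agent.Lib.P064.Sunflower
import Vale.Agent.Lib.P064.RealIneq

namespace Vale.Agent.Lib.P064

open Finset SimpleGraph Real

open scoped Classical

set_option linter.unusedSectionVars false

variable {V W : Type} [Fintype V] [Fintype W]

/-- All the data of the block induction. -/
structure BlockSetup (H : SimpleGraph V) (F : SimpleGraph W) (n : ℕ) (q l : ℝ) (t Dt D : ℕ)
    (j : V → V → ℕ) (out : V → Finset V) (R : W → W → Prop) (Φ : Finset (W → V)) : Prop where
  hyp : HypCount H n q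
  hn : 1 ≤ n
  hq0 : 0 < q
  hq1 : q ≤ 1
  hl : 1 ≤ l
  hql : q = exp (-l)
  ht : l ≤ t
  hDt : (Dt : ℝ) ≤ t * log n / l + 1
  hj1 : ∀ y y', H.Adj y y' → j y y' + j y' y = t
  hj2 : ∀ y, ∑ y' ∈ Finset.univ.filter (fun y' => H.Adj y y'), j y y' ≤ Dt
  hout : ∀ y, (out y).card ≤ D
  hD : (D : ℝ) ≤ 2 * log n + 2
  hRF : ∀ a b, R a b → F.Adj a b
  hinj : ∀ φ ∈ Φ, Function.Injective φ
  hom : ∀ φ ∈ Φ, ∀ a b, F.Adj a b → H.Adj (φ a) (φ b)
  harcout : ∀ φ ∈ Φ, ∀ a b, R a b → φ b ∈ out (φ a)
  harc : ∀ φ ∈ Φ, ∀ a b, F.Adj a b → ¬ R a b → 2 * l * (j (φ a) (φ b) : ℝ) < t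

/-- The weight inequality in exponential form: `M = n^s q^r` is not too small on a block. -/
theorem block_density {H : SimpleGraph V} {F : SimpleGraph W} {n : ℕ} {q l : ℝ} {t Dt D : ℕ}
    {j : V → V → ℕ} {out : V → Finset V} {R : W → W → Prop} {Φ : Finset (W → V)}
    (S : BlockSetup H F n q l t Dt D j out R Φ) {K C : Finset W} (hK : Closed R K)
    (hdisj : Disjoint K C) {φ : W → V} (hφ : φ ∈ Φ) :
    1 ≤ ((n : ℝ) ^ C.card * q ^ (blockEdges F K C).card)
      * exp (((blockEdges F K C).card : ℝ) / 2 + C.card) := by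
  have hl0 : 0 < l := lt_of_lt_of_le one_pos S.hl
  have hw := block_weight hK hdisj (S.hinj φ hφ) (S.hom φ hφ) S.hj1 S.hj2 hl0 (S.harc φ hφ)
  set r : ℕ := (blockEdges F K C).card with hr
  set s : ℕ := C.card with hs
  have hn0 : (0 : ℝ) < n := by exact_mod_cast S.hn
  set lg : ℝ := log n with hlg
  have hlg0 : 0 ≤ lg := log_natCast_nonneg n
  have ht0 : (0 : ℝ) < t := lt_of_lt_of_le hl0 S.ht
  -- from the weights
  have h1 : (r : ℝ) * (l - 1 / 2) ≤ (lg + 1) * s := by
    have h2 : (r : ℝ) * ((t : ℝ) - t / (2 * l)) ≤ ((t : ℝ) * lg / l + 1) * s :=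
      hw.trans (mul_le_mul_of_nonneg_right S.hDt (Nat.cast_nonneg _))
    have h3 : (r : ℝ) * ((t : ℝ) - t / (2 * l)) = (t / l) * ((r : ℝ) * (l - 1 / 2)) := by
      field_simp
    have h4 : ((t : ℝ) * lg / l + 1) * s = (t / l) * ((lg + l / t) * s) := by
      field_simp
    rw [h3, h4] at h2
    have h5 : (0 : ℝ) < t / l := by positivity
    have h6 := le_of_mul_le_mul_left h2 h5
    have h7 : l / t ≤ 1 := (div_le_one ht0).2 S.ht
    have h8 : (lg + l / t) * s ≤ (lg + 1) * s :=
      mul_le_mul_of_nonneg_right (by linarith) (Nat.cast_nonneg _)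
    exact h6.trans h8
  have hM : (n : ℝ) ^ s * q ^ r = exp ((s : ℝ) * lg - r * l) := by
    have h_n : (n : ℝ) ^ s = exp ((s : ℝ) * lg) := by
      rw [Real.exp_nat_mul, Real.exp_log hn0]
    have h_q : q ^ r = exp (-((r : ℝ) * l)) := by
      rw [S.hql, ← Real.exp_nat_mul]
      congr 1
      ring
    rw [h_n, h_q, ← Real.exp_add]
    congr 1
  rw [hM, ← Real.exp_add]
  apply one_le_exp
  nlinarith

/-- Existence of a minimal block. -/
theorem exists_minBlock {R : W → W → Prop} {K : Finset W} (hne : K ≠ Finset.univ) :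
    ∃ C, IsMinBlock R K C := by
  set P : Finset (Finset W) := (Kᶜ).powerset.filter
    (fun C => C.Nonempty ∧ Closed R (K ∪ C)) with hP
  have hPne : P.Nonempty := by
    refine ⟨Kᶜ, Finset.mem_filter.2 ⟨Finset.mem_powerset.2 subset_rfl, ?_, ?_⟩⟩
    · obtain ⟨x, hx⟩ : ∃ x, x ∉ K := by
        by_contra hcon
        push Not at hcon
        exact hne (Finset.eq_univ_iff_forall.2 hcon)
      exact ⟨x, Finset.mem_compl.2 hx⟩
    · intro x _ y _
      rcases Finset.mem_union.1 (Finset.mem_univ y |> fun _ =>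
        (by
          by_cases hy : y ∈ K
          · exact Finset.mem_union_left _ hy
          · exact Finset.mem_union_right _ (Finset.mem_compl.2 hy) : y ∈ K ∪ Kᶜ)) with h | h
      · exact Finset.mem_union_left _ h
      · exact Finset.mem_union_right _ h
  obtain ⟨C, hC, hmin⟩ := Finset.exists_min_image P Finset.card hPne
  have hC' := Finset.mem_filter.1 hC
  refine ⟨C, hC'.2.1, ?_, hC'.2.2, ?_⟩
  · rw [Finset.disjoint_right]
    intro x hx hxK
    exact Finset.mem_compl.1 (Finset.mem_powerset.1 hC'.1 hx) hxK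
  · intro C' hsub hne' hneq hclosed
    have hmem : C' ∈ P := Finset.mem_filter.2
      ⟨Finset.mem_powerset.2 (hsub.trans (Finset.mem_powerset.1 hC'.1)), hne', hclosed⟩
    have h1 := hmin C' hmem
    have h2 := Finset.card_lt_card (Finset.ssubset_iff_subset_ne.2 ⟨hsub, hneq⟩)
    omega

/-- The main block induction. -/
theorem count_closed {H : SimpleGraph V} {F : SimpleGraph W} {n : ℕ} {q l : ℝ} {t Dt D : ℕ}
    {j : V → V → ℕ} {out : V → Finset V} {R : W → W → Prop} {Φ : Finset (W → V)}
    (S : BlockSetup H F n q l t Dt D j out R Φ) :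
    ∀ (d : ℕ) (K : Finset W), (Kᶜ).card = d → Closed R K → ∀ ψ : W → V,
      ((Φ.filter (fun φ => ∀ x ∈ K, φ x = ψ x)).card : ℝ)
        ≤ (4 * exp 3 * n) ^ (Kᶜ).card * ((4 * log n + 4) * q) ^ (outEdges F K).card := by
  intro d
  induction d using Nat.strong_induction_on with
  | _ d ih =>
    intro K hd hK ψ
    have hq0 := S.hq0
    have hn0 : (0 : ℝ) < n := by exact_mod_cast S.hn
    have hlg0 : 0 ≤ log (n : ℝ) := log_natCast_nonneg n
    by_cases hKu : K = Finset.univ
    · subst hKu
      have h1 : (Φ.filter (fun φ => ∀ x ∈ (Finset.univ : Finset W), φ x = ψ x)).card ≤ 1 := by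
        rw [Finset.card_le_one]
        intro a ha b hb
        have ha' := (Finset.mem_filter.1 ha).2
        have hb' := (Finset.mem_filter.1 hb).2
        funext x
        rw [ha' x (Finset.mem_univ _), hb' x (Finset.mem_univ _)]
      have h2 : outEdges F (Finset.univ : Finset W) = ∅ := by
        ext e
        simp [outEdges]
      rw [h2]
      simp only [Finset.compl_univ, Finset.card_empty, pow_zero, mul_one]
      exact_mod_cast h1
    · obtain ⟨C, hb⟩ := exists_minBlock (R := R) hKu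
      set K' : Finset W := K ∪ C with hK'
      have hs1 : 1 ≤ C.card := Finset.card_pos.2 hb.nonempty
      have hcompl : (Kᶜ).card = C.card + (K'ᶜ).card := by
        have h1 : K'ᶜ ∪ C = Kᶜ := by
          ext x
          simp only [hK', Finset.mem_union, Finset.mem_compl, not_or]
          constructor
          · rintro (⟨h, _⟩ | h)
            · exact h
            · exact fun hx => Finset.disjoint_left.1 hb.disj hx h
          · intro h
            by_cases hx : x ∈ C
            · exact Or.inr hx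
            · exact Or.inl ⟨h, hx⟩
        have h2 : Disjoint (K'ᶜ) C := by
          rw [Finset.disjoint_left]
          intro x hx hxC
          exact Finset.mem_compl.1 hx (Finset.mem_union_right _ hxC)
        rw [← h1, Finset.card_union_of_disjoint h2, add_comm]
      have hoe := outEdges_card_split F K C
      set Φ' := Φ.filter (fun φ => ∀ x ∈ K, φ x = ψ x) with hΦ'
      set B' : ℝ := (4 * exp 3 * n) ^ (K'ᶜ).card * ((4 * log n + 4) * q) ^ (outEdges F K').card
        with hB'
      have hB'0 : 0 ≤ B' := by positivity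
      have hfib : ∀ ψ' : W → V, ((Φ'.filter (fun φ => ∀ x ∈ K', φ x = ψ' x)).card : ℝ) ≤ B' := by
        intro ψ'
        have h1 := ih (K'ᶜ).card (by omega) K' rfl hb.closed ψ'
        refine le_trans ?_ h1
        have h2 : Φ'.filter (fun φ => ∀ x ∈ K', φ x = ψ' x)
            ⊆ Φ.filter (fun φ => ∀ x ∈ K', φ x = ψ' x) := by
          intro φ hφ
          have hφ' := Finset.mem_filter.1 hφ
          exact Finset.mem_filter.2 ⟨(Finset.mem_filter.1 hφ'.1).1, hφ'.2⟩
        exact_mod_cast Finset.card_le_card h2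
      have hcount := card_le_card_image_res_mul (S := K') (Φ := Φ') hfib
      rcases Φ'.eq_empty_or_nonempty with hemp | ⟨φ₀, hφ₀⟩
      · rw [hemp]
        simp only [Finset.card_empty, Nat.cast_zero]
        positivity
      have hφ₀Φ : φ₀ ∈ Φ := (Finset.mem_filter.1 hφ₀).1
      have hM2 := block_density S hK hb.disj hφ₀Φ
      set r := (blockEdges F K C).card with hr
      set a := (attach F K C).card with ha
      set s := C.card with hs
      set M : ℝ := (n : ℝ) ^ s * q ^ r with hM
      have hMpos : 0 < M := by positivity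
      set m₀ : ℕ := ⌊exp 2 * M + a * log n⌋₊ with hm₀
      have hnn : 0 ≤ exp 2 * M + a * log n := by positivity
      have hm₀le : (m₀ : ℝ) ≤ exp 2 * M + a * log n := Nat.floor_le hnn
      have hm : ∀ 𝓢 ⊆ Φ', (∀ φ ∈ 𝓢, ∀ ψ' ∈ 𝓢, φ ≠ ψ' → Disjoint (C.image φ) (C.image ψ')) →
          𝓢.card ≤ m₀ := by
        intro 𝓢 h𝓢 hdis
        apply Nat.le_floor
        have hin : ∀ φ ∈ 𝓢, φ ∈ Φ := fun φ hφ => (Finset.mem_filter.1 (h𝓢 hφ)).1
        have := petal_bound S.hyp S.hn S.hq0 S.hq1 hb.disj hb.nonempty (𝓢 := 𝓢) (ψ := ψ)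
          (fun φ hφ => S.hinj φ (hin φ hφ)) (fun φ hφ => S.hom φ (hin φ hφ))
          (fun φ hφ => (Finset.mem_filter.1 (h𝓢 hφ)).2) hdis
        exact m_bound S.hn hMpos this
      have hrec := block_records_le hK hb (Φ := Φ') S.hout
        (fun φ hφ => S.harcout φ (Finset.mem_filter.1 hφ).1)
        (fun φ hφ ψ' hψ' z hz => by
          rw [(Finset.mem_filter.1 hφ).2 z hz, (Finset.mem_filter.1 hψ').2 z hz]) hm
      have hreal := block_real (s := s) (r := r) (a := a) (m := m₀) (D := D) (n := n) (q := q)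
        hs1 S.hn hq0 hm₀le hM2 (card_blockEdges_ge hK hb S.hRF) S.hD
      have hrec' : ((Φ'.image (res K')).card : ℝ)
          ≤ (4 * exp 3 * n) ^ s * ((4 * log n + 4) * q) ^ r :=
        le_trans (by exact_mod_cast hrec) hreal
      calc (Φ'.card : ℝ) ≤ ((Φ'.image (res K')).card : ℝ) * B' := hcount
        _ ≤ ((4 * exp 3 * n) ^ s * ((4 * log n + 4) * q) ^ r) * B' :=
            mul_le_mul_of_nonneg_right hrec' hB'0
        _ = (4 * exp 3 * n) ^ (Kᶜ).card * ((4 * log n + 4) * q) ^ (outEdges F K).card := by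
            rw [hcompl, hoe, hB', pow_add, pow_add]
            ring

end Vale.Agent.Lib.P064
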