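import Vale.Agent.Lib.P064.Defs

namespace Vale.Agent.Lib.P064

open SimpleGraph Finset

set_option linter.unusedSectionVars false

variable {X Y : Type} [Fintype X] [Fintype Y]

theorem toSubgraph_adj_iff {G : SimpleGraph Y} {A : SimpleGraph X} (f : A.Copy G) (a b : Y) :
    f.toSubgraph.Adj a b ↔ ∃ u v, A.Adj u v ∧ f u = a ∧ f v = b := by
  simp [Copy.toSubgraph, Subgraph.map_adj, Relation.Map]

theorem toSubgraph_verts_iff {G : SimpleGraph Y} {A : SimpleGraph X} (f : A.Copy G) (a : Y) :
    a ∈ f.toSubgraph.verts ↔ ∃ u, f u = a := by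
  simp [Copy.toSubgraph, Subgraph.map_verts]

/-- Two copies with the same subgraph differ by an automorphism. -/
theorem exists_aut_of_toSubgraph_eq {G : SimpleGraph Y} {A : SimpleGraph X} (f f₀ : A.Copy G)
    (h : f.toSubgraph = f₀.toSubgraph) : ∃ σ : A ≃g A, ∀ a, f₀ (σ a) = f a := by
  classical
  have hv : ∀ a, ∃ b, f₀ b = f a := by
    intro a
    have : f a ∈ f.toSubgraph.verts := (toSubgraph_verts_iff f _).2 ⟨a, rfl⟩
    rw [h] at this
    exact (toSubgraph_verts_iff f₀ _).1 this
  choose s hs using hv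
  have hinj : Function.Injective s := by
    intro a b hab
    have : f a = f b := by rw [← hs a, ← hs b, hab]
    exact f.injective this
  have hbij : Function.Bijective s := ⟨hinj, Finite.surjective_of_injective hinj⟩
  refine ⟨⟨Equiv.ofBijective s hbij, ?_⟩, fun a => hs a⟩
  intro a b
  simp only [Equiv.ofBijective_apply]
  constructor
  · intro hab
    have h1 : f₀.toSubgraph.Adj (f a) (f b) :=
      (toSubgraph_adj_iff f₀ _ _).2 ⟨s a, s b, hab, hs a, hs b⟩
    rw [← h] at h1
    obtain ⟨u, v, huv, hu, hv⟩ := (toSubgraph_adj_iff f _ _).1 h1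
    have := f.injective hu
    have := f.injective hv
    subst_vars
    exact huv
  · intro hab
    have h1 : f.toSubgraph.Adj (f a) (f b) :=
      (toSubgraph_adj_iff f _ _).2 ⟨a, b, hab, rfl, rfl⟩
    rw [h] at h1
    obtain ⟨u, v, huv, hu, hv⟩ := (toSubgraph_adj_iff f₀ _ _).1 h1
    have h2 : u = s a := f₀.injective (show f₀ u = f₀ (s a) by rw [hu, hs])
    have h3 : v = s b := f₀.injective (show f₀ v = f₀ (s b) by rw [hv, hs])
    subst h2 h3
    exact huv

theorem toSubgraph_comp_aut {G : SimpleGraph Y} {A : SimpleGraph X} (f₀ : A.Copy G)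
    (σ : A ≃g A) : (f₀.comp σ.toCopy).toSubgraph = f₀.toSubgraph := by
  ext a
  · rw [toSubgraph_verts_iff, toSubgraph_verts_iff]
    constructor
    · rintro ⟨u, rfl⟩
      exact ⟨σ u, rfl⟩
    · rintro ⟨u, rfl⟩
      refine ⟨σ.symm u, ?_⟩
      simp [Copy.comp_apply]
  · rename_i b
    rw [toSubgraph_adj_iff, toSubgraph_adj_iff]
    constructor
    · rintro ⟨u, v, huv, rfl, rfl⟩
      exact ⟨σ u, σ v, σ.map_rel_iff.2 huv, rfl, rfl⟩
    · rintro ⟨u, v, huv, rfl, rfl⟩
      refine ⟨σ.symm u, σ.symm v, ?_, ?_, ?_⟩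
      · exact σ.symm.map_rel_iff.2 huv
      · simp [Copy.comp_apply]
      · simp [Copy.comp_apply]

/-- Number of labelled copies equals number of copies times the number of automorphisms. -/
theorem labelled_eq_copy_mul_aut (G : SimpleGraph Y) (A : SimpleGraph X) [Fintype (A ≃g A)] :
    G.labelledCopyCount A = G.copyCount A * Fintype.card (A ≃g A) := by
  classical
  rw [copyCount_eq_card_image_copyToSubgraph, labelledCopyCount]
  have key : ∀ S ∈ ((Finset.univ : Finset (A.Copy G)).image Copy.toSubgraph),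
      ((Finset.univ : Finset (A.Copy G)).filter (fun f => f.toSubgraph = S)).card
        = Fintype.card (A ≃g A) := by
    intro S hS
    obtain ⟨f₀, -, rfl⟩ := Finset.mem_image.1 hS
    symm
    rw [← Finset.card_univ]
    refine Finset.card_bij (fun σ _ => f₀.comp σ.toCopy) ?_ ?_ ?_
    · intro σ _
      simp [toSubgraph_comp_aut]
    · intro σ _ τ _ hστ
      ext a
      have := congrArg (fun f : A.Copy G => f a) hστ
      exact f₀.injective (by simpa [Copy.comp_apply] using this)
    · intro f hf
      have hf' : f.toSubgraph = f₀.toSubgraph := by simpa using hf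
      obtain ⟨σ, hσ⟩ := exists_aut_of_toSubgraph_eq f f₀ hf'
      refine ⟨σ, Finset.mem_univ _, ?_⟩
      ext a
      simpa [Copy.comp_apply] using hσ a
  have hsum := Finset.card_eq_sum_card_image (Copy.toSubgraph (A := A) (B := G))
    (Finset.univ : Finset (A.Copy G))
  rw [Finset.card_univ] at hsum
  convert hsum using 1
  rw [Finset.sum_congr rfl key, Finset.sum_const, smul_eq_mul]


/-- Labelled copies as embeddings respecting adjacency. -/
theorem labelled_eq_card_filter [DecidableEq Y] (G : SimpleGraph Y) (F : SimpleGraph X)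
    [DecidableEq X] [DecidablePred (fun g : X ↪ Y => ∀ a b, F.Adj a b → G.Adj (g a) (g b))] :
    G.labelledCopyCount F =
      ((Finset.univ : Finset (X ↪ Y)).filter
        (fun g => ∀ a b, F.Adj a b → G.Adj (g a) (g b))).card := by
  let e : F.Copy G ≃ {g : X ↪ Y // ∀ a b, F.Adj a b → G.Adj (g a) (g b)} :=
    { toFun := fun f => ⟨f.toEmbedding, fun a b h => f.toHom.map_adj h⟩
      invFun := fun g => ⟨⟨g.1, fun {a b} h => g.2 a b h⟩, g.1.injective⟩
      left_inv := fun f => by ext; rfl
      right_inv := fun g => by ext; rfl }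
  have h1 : G.labelledCopyCount F = Nat.card (F.Copy G) := by
    unfold labelledCopyCount
    exact Fintype.card_eq_nat_card
  rw [h1, Nat.card_congr e]
  exact Nat.subtype_card _ (fun g => by simp)

theorem ncard_eq_edgeFinset_card {Z : Type} [Fintype Z] (G : SimpleGraph Z)
    [Fintype G.edgeSet] : G.edgeSet.ncard = G.edgeFinset.card := by
  rw [← coe_edgeFinset, Set.ncard_coe_finset]

open scoped Classical in
/-- The probability that `G(n,p)` contains a given graph `G₀`. -/
theorem sum_gnpProb_superset (n : ℕ) (p : ℝ) (G₀ : SimpleGraph (Fin n)) :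
    ∑ G : SimpleGraph (Fin n), gnpProb n p G * (if G₀ ≤ G then (1 : ℝ) else 0)
      = p ^ G₀.edgeSet.ncard := by
  classical
  set Ω : Finset (Sym2 (Fin n)) := (⊤ : SimpleGraph (Fin n)).edgeFinset with hΩ
  have hΩcard : Ω.card = n.choose 2 := by
    rw [hΩ, card_edgeFinset_top_eq_card_choose_two, Fintype.card_fin]
  set E : Finset (Sym2 (Fin n)) := G₀.edgeFinset with hE
  have hEΩ : E ⊆ Ω := by
    rw [hE, hΩ]
    exact edgeFinset_mono le_top
  have hprod := Finset.prod_add (fun _ : Sym2 (Fin n) => p)
    (fun i => if i ∈ E then (0 : ℝ) else 1 - p) Ω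
  have hlhs : ∏ i ∈ Ω, (p + (if i ∈ E then (0 : ℝ) else 1 - p)) = p ^ E.card := by
    have : ∀ i ∈ Ω, (p + (if i ∈ E then (0 : ℝ) else 1 - p)) = if i ∈ E then p else 1 := by
      intro i _
      split_ifs <;> ring
    rw [Finset.prod_congr rfl this, Finset.prod_ite_mem, Finset.inter_eq_right.2 hEΩ,
      Finset.prod_const]
  rw [hlhs] at hprod
  rw [ncard_eq_edgeFinset_card, ← hE, hprod]
  -- transfer the sum to subsets of `Ω`
  refine Finset.sum_bij' (fun G _ => G.edgeFinset) (fun S _ => fromEdgeSet (S : Set (Sym2 (Fin n))))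
    ?_ ?_ ?_ ?_ ?_
  · intro G _
    rw [Finset.mem_powerset, hΩ]
    exact edgeFinset_mono le_top
  · intro S _
    exact Finset.mem_univ _
  · intro G _
    simp
  · intro S hS
    have hS' : S ⊆ Ω := Finset.mem_powerset.1 hS
    ext e
    simp only [mem_edgeFinset, edgeSet_fromEdgeSet, Set.mem_sdiff, Finset.mem_coe]
    constructor
    · exact fun h => h.1
    · intro h
      refine ⟨h, ?_⟩
      have := hS' h
      rw [hΩ, mem_edgeFinset, edgeSet_top] at this
      simpa using this
  · intro G _
    have hcard : G.edgeSet.ncard = G.edgeFinset.card := ncard_eq_edgeFinset_card G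
    have hsub : G.edgeFinset ⊆ Ω := by
      rw [hΩ]
      exact edgeFinset_mono le_top
    rw [Finset.prod_const]
    by_cases h : G₀ ≤ G
    · have hE' : E ⊆ G.edgeFinset := by
        rw [hE]
        exact edgeFinset_mono h
      have h1 : ∏ i ∈ Ω \ G.edgeFinset, (if i ∈ E then (0 : ℝ) else 1 - p)
          = (1 - p) ^ (n.choose 2 - G.edgeSet.ncard) := by
        have : ∀ i ∈ Ω \ G.edgeFinset, (if i ∈ E then (0 : ℝ) else 1 - p) = 1 - p := by
          intro i hi
          rw [Finset.mem_sdiff] at hi
          rw [if_neg (fun hiE => hi.2 (hE' hiE))]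
        rw [Finset.prod_congr rfl this, Finset.prod_const, Finset.card_sdiff_of_subset hsub, hΩcard,
          hcard]
      rw [if_pos h, mul_one, gnpProb, h1, hcard]
    · have hE' : ¬ E ⊆ G.edgeFinset := by
        intro hsubE
        apply h
        rw [hE] at hsubE
        exact edgeFinset_subset_edgeFinset.1 hsubE
      obtain ⟨i, hiE, hiG⟩ := Finset.not_subset.1 hE'
      have h1 : ∏ i ∈ Ω \ G.edgeFinset, (if i ∈ E then (0 : ℝ) else 1 - p) = 0 := by
        refine Finset.prod_eq_zero (i := i) (Finset.mem_sdiff.2 ⟨hEΩ hiE, hiG⟩) ?_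
        rw [if_pos hiE]
      rw [if_neg h, mul_zero, h1, mul_zero]

theorem finite_aut (F : SimpleGraph X) : Finite (F ≃g F) :=
  Finite.of_injective (fun σ : F ≃g F => (σ.toEquiv : X ≃ X)) (fun a b h => by
    ext x
    exact congrArg (fun e : X ≃ X => e x) h)

/-- `E N(G(n,p),F)` by linearity of expectation. -/
theorem expCopies_eq (n : ℕ) (p : ℝ) (F : SimpleGraph X) :
    expCopies n p F = ((⊤ : SimpleGraph (Fin n)).copyCount F : ℝ) * p ^ F.edgeSet.ncard := by
  classical
  have := finite_aut F
  let _ : Fintype (F ≃g F) := Fintype.ofFinite _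
  have haut : 0 < Fintype.card (F ≃g F) := Fintype.card_pos_iff.2 ⟨Iso.refl⟩
  have haut' : (0 : ℝ) < (Fintype.card (F ≃g F) : ℝ) := by exact_mod_cast haut
  have hedge : ∀ g : X ↪ Fin n, (F.map g).edgeSet.ncard = F.edgeSet.ncard := by
    intro g
    rw [edgeSet_map, Set.ncard_image_of_injective _ (Function.Embedding.injective _)]
  have main : expCopies n p F * (Fintype.card (F ≃g F) : ℝ)
      = ((⊤ : SimpleGraph (Fin n)).copyCount F : ℝ) * (Fintype.card (F ≃g F) : ℝ)
          * p ^ F.edgeSet.ncard := by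
    rw [expCopies, Finset.sum_mul]
    have h1 : ∀ G : SimpleGraph (Fin n),
        gnpProb n p G * (G.copyCount F : ℝ) * (Fintype.card (F ≃g F) : ℝ)
          = ∑ g : X ↪ Fin n, gnpProb n p G * (if F.map g ≤ G then (1 : ℝ) else 0) := by
      intro G
      have h2 : (G.copyCount F : ℝ) * (Fintype.card (F ≃g F) : ℝ)
          = ((Finset.univ : Finset (X ↪ Fin n)).filter
              (fun g => ∀ a b, F.Adj a b → G.Adj (g a) (g b))).card := by
        rw [← labelled_eq_card_filter G F, labelled_eq_copy_mul_aut G F]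
        push_cast
        ring
      rw [mul_assoc, h2, ← Finset.mul_sum, Finset.card_eq_sum_ones, Finset.sum_filter]
      push_cast
      congr 1
      refine Finset.sum_congr rfl fun g _ => ?_
      have : (∀ a b, F.Adj a b → G.Adj (g a) (g b)) ↔ F.map g ≤ G := by
        rw [map_le_iff_le_comap]
        exact Iff.rfl
      simp only [this]
    rw [Finset.sum_congr rfl (fun G _ => h1 G), Finset.sum_comm]
    have h3 : ∀ g : X ↪ Fin n,
        ∑ G : SimpleGraph (Fin n), gnpProb n p G * (if F.map g ≤ G then (1 : ℝ) else 0)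
          = p ^ F.edgeSet.ncard := by
      intro g
      rw [sum_gnpProb_superset, hedge]
    rw [Finset.sum_congr rfl (fun g _ => h3 g), Finset.sum_const, nsmul_eq_mul]
    have h4 : ((⊤ : SimpleGraph (Fin n)).copyCount F : ℝ) * (Fintype.card (F ≃g F) : ℝ)
        = ((Finset.univ : Finset (X ↪ Fin n)).card : ℝ) := by
      have := labelled_eq_card_filter (⊤ : SimpleGraph (Fin n)) F
      rw [labelled_eq_copy_mul_aut] at this
      have h5 : ((Finset.univ : Finset (X ↪ Fin n)).filter
          (fun g => ∀ a b, F.Adj a b → (⊤ : SimpleGraph (Fin n)).Adj (g a) (g b)))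
          = Finset.univ := by
        apply Finset.filter_true_of_mem
        intro g _ a b hab
        rw [top_adj]
        exact fun h => hab.ne (g.injective h)
      rw [h5] at this
      exact_mod_cast this
    rw [h4]
  have := mul_right_cancel₀ haut'.ne' (by
    rw [main]; ring :
      expCopies n p F * (Fintype.card (F ≃g F) : ℝ)
        = ((⊤ : SimpleGraph (Fin n)).copyCount F : ℝ) * p ^ F.edgeSet.ncard
            * (Fintype.card (F ≃g F) : ℝ))
  exact this

end Vale.Agent.Lib.P064
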