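import Mathlib

namespace Vale.Agent.Lib.P064

open SimpleGraph

/-- The probability of the graph `G` on `[n]` in the random graph `G(n,p)`: each of the
`n.choose 2` possible edges is present independently with probability `p`. -/
noncomputable def gnpProb (n : ℕ) (p : ℝ) (G : SimpleGraph (Fin n)) : ℝ :=
  p ^ G.edgeSet.ncard * (1 - p) ^ (n.choose 2 - G.edgeSet.ncard)

/-- The expected number `E N(G(n,p),F)` of subgraphs of `G(n,p)` isomorphic to `F`
(`SimpleGraph.copyCount` is Mathlib's number of subgraphs isomorphic to a given graph). -/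
noncomputable def expCopies (n : ℕ) (p : ℝ) {W : Type} (F : SimpleGraph W) : ℝ :=
  ∑ G : SimpleGraph (Fin n), gnpProb n p G * (G.copyCount F : ℝ)

/-- The densities admissible in the definition of `p_E(n,H)`. -/
def pESet (n : ℕ) {V : Type} (H : SimpleGraph V) : Set ℝ :=
  {p | 0 ≤ p ∧ p ≤ 1 ∧ ∀ F : H.Subgraph, (1 / 2 : ℝ) ≤ expCopies n p F.coe}

/-- The densities admissible in the definition of `p̃_E(n,H)`. -/
def pTildeESet (n : ℕ) {V : Type} [Fintype V] (H : SimpleGraph V) : Set ℝ :=
  {p | 0 ≤ p ∧ p ≤ 1 ∧ ∀ F : H.Subgraph, (H.copyCount F.coe : ℝ) / 2 ≤ expCopies n p F.coe}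

/-- The expectation threshold `p_E(n,H)`. -/
noncomputable def pE (n : ℕ) {V : Type} (H : SimpleGraph V) : ℝ := sInf (pESet n H)

/-- The fractional expectation threshold `p̃_E(n,H)`. -/
noncomputable def pTildeE (n : ℕ) {V : Type} [Fintype V] (H : SimpleGraph V) : ℝ :=
  sInf (pTildeESet n H)

end Vale.Agent.Lib.P064
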