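import Vale.Agent.Lib.P064.Block

namespace Vale.Agent.Lib.P064

open Finset SimpleGraph

open scoped Classical

set_option linter.unusedSectionVars false

variable {V W : Type} [Fintype V] [Fintype W]

/-- The weight inequality for a block: summing the orientation weights over the vertices of the
block bounds the number of edges of the block. -/
theorem block_weight {H : SimpleGraph V} {F : SimpleGraph W} {R : W → W → Prop} {K C : Finset W}
    (hK : Closed R K) (hdisj : Disjoint K C) {φ : W → V} (hinj : Function.Injective φ)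
    (hom : ∀ a b, F.Adj a b → H.Adj (φ a) (φ b)) {j : V → V → ℕ} {t Dt : ℕ}
    (hj1 : ∀ y y', H.Adj y y' → j y y' + j y' y = t)
    (hj2 : ∀ y, ∑ y' ∈ Finset.univ.filter (fun y' => H.Adj y y'), j y y' ≤ Dt)
    {l : ℝ} (hl : 0 < l)
    (harc : ∀ a b, F.Adj a b → ¬ R a b → 2 * l * (j (φ a) (φ b) : ℝ) < t) :
    ((blockEdges F K C).card : ℝ) * ((t : ℝ) - t / (2 * l)) ≤ (Dt : ℝ) * C.card := by
  set P : Finset (W × W) := (C ×ˢ (K ∪ C)).filter (fun p => F.Adj p.1 p.2) with hP
  set w : W × W → ℝ := fun p => (j (φ p.1) (φ p.2) : ℝ) with hw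
  have hw0 : ∀ p, 0 ≤ w p := fun p => Nat.cast_nonneg _
  have hCK : ∀ z, z ∈ C → z ∉ K := fun z hz hzK => Finset.disjoint_left.1 hdisj hzK hz
  -- upper bound
  have hupper : ∑ p ∈ P, w p ≤ (Dt : ℝ) * C.card := by
    have h1 : ∑ p ∈ P, w p = ∑ x ∈ C, ∑ x' ∈ (K ∪ C).filter (fun x' => F.Adj x x'), w (x, x') := by
      rw [hP, Finset.sum_filter, Finset.sum_product]
      refine Finset.sum_congr rfl fun x _ => ?_
      rw [Finset.sum_filter]
    rw [h1, mul_comm, ← nsmul_eq_mul]
    refine Finset.sum_le_card_nsmul _ _ _ ?_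
    intro x _
    have h2 : ∑ x' ∈ (K ∪ C).filter (fun x' => F.Adj x x'), w (x, x')
        = ∑ y' ∈ ((K ∪ C).filter (fun x' => F.Adj x x')).image φ, (j (φ x) y' : ℝ) := by
      rw [Finset.sum_image (fun a _ b _ h => hinj h)]
    rw [h2]
    have h3 : ((K ∪ C).filter (fun x' => F.Adj x x')).image φ
        ⊆ Finset.univ.filter (fun y' => H.Adj (φ x) y') := by
      intro y hy
      obtain ⟨x', hx', rfl⟩ := Finset.mem_image.1 hy
      exact Finset.mem_filter.2 ⟨Finset.mem_univ _, hom _ _ (Finset.mem_filter.1 hx').2⟩
    calc ∑ y' ∈ ((K ∪ C).filter (fun x' => F.Adj x x')).image φ, (j (φ x) y' : ℝ)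
        ≤ ∑ y' ∈ Finset.univ.filter (fun y' => H.Adj (φ x) y'), (j (φ x) y' : ℝ) :=
          Finset.sum_le_sum_of_subset_of_nonneg h3 (fun _ _ _ => Nat.cast_nonneg _)
      _ ≤ Dt := by exact_mod_cast hj2 (φ x)
  -- lower bound
  have hmaps : ∀ p ∈ P, s(p.1, p.2) ∈ blockEdges F K C := by
    intro p hp
    have hp' := Finset.mem_filter.1 hp
    have hp2 := Finset.mem_product.1 hp'.1
    refine Finset.mem_filter.2 ⟨?_, ?_, ?_⟩
    · rw [mem_edgeFinset]
      exact hp'.2
    · intro v hv
      rcases Sym2.mem_iff.1 hv with rfl | rfl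
      · exact Finset.mem_union_right _ hp2.1
      · exact hp2.2
    · intro hall
      exact hCK _ hp2.1 (hall p.1 (Sym2.mem_mk_left _ _))
  have hfib : ∀ e ∈ blockEdges F K C,
      (t : ℝ) - t / (2 * l) ≤ ∑ p ∈ P with s(p.1, p.2) = e, w p := by
    intro e he
    have hcross : ∀ u v, F.Adj u v → u ∈ C → v ∈ K →
        (t : ℝ) - t / (2 * l) ≤ ∑ p ∈ P with s(p.1, p.2) = s(u, v), w p := by
      intro u v huv hu hv
      have hmem : (u, v) ∈ P.filter (fun p => s(p.1, p.2) = s(u, v)) := by
        refine Finset.mem_filter.2 ⟨Finset.mem_filter.2 ⟨Finset.mem_product.2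
          ⟨hu, Finset.mem_union_left _ hv⟩, huv⟩, rfl⟩
      have hle : w (u, v) ≤ ∑ p ∈ P with s(p.1, p.2) = s(u, v), w p :=
        Finset.single_le_sum (fun p _ => hw0 p) hmem
      refine le_trans ?_ hle
      have hnR : ¬ R v u := fun h => hCK u hu (hK v hv u h)
      have h1 := harc v u huv.symm hnR
      have h2 := hj1 _ _ (hom u v huv)
      have h3 : (j (φ u) (φ v) : ℝ) + j (φ v) (φ u) = t := by exact_mod_cast h2
      have h4 : (j (φ v) (φ u) : ℝ) < t / (2 * l) := by
        rw [lt_div_iff₀ (by positivity)]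
        linarith
      simp only [hw]
      linarith
    induction e using Sym2.ind with
    | _ u v =>
      have he' := Finset.mem_filter.1 he
      have huv : F.Adj u v := by
        have := he'.1
        rwa [mem_edgeFinset] at this
      have hu : u ∈ K ∪ C := he'.2.1 u (Sym2.mem_mk_left _ _)
      have hv : v ∈ K ∪ C := he'.2.1 v (Sym2.mem_mk_right _ _)
      by_cases huC : u ∈ C
      · by_cases hvC : v ∈ C
        · -- both in the block
          have hne : (u, v) ≠ (v, u) := by
            intro h
            exact huv.ne (congrArg Prod.fst h)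
          have hsub : ({(u, v), (v, u)} : Finset (W × W))
              ⊆ P.filter (fun p => s(p.1, p.2) = s(u, v)) := by
            intro p hp
            rcases Finset.mem_insert.1 hp with rfl | hp
            · exact Finset.mem_filter.2 ⟨Finset.mem_filter.2 ⟨Finset.mem_product.2
                ⟨huC, hv⟩, huv⟩, rfl⟩
            · rw [Finset.mem_singleton.1 hp]
              exact Finset.mem_filter.2 ⟨Finset.mem_filter.2 ⟨Finset.mem_product.2
                ⟨hvC, hu⟩, huv.symm⟩, Sym2.eq_swap⟩
          have hle := Finset.sum_le_sum_of_subset_of_nonneg (f := w) hsub (fun p _ _ => hw0 p)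
          rw [Finset.sum_pair hne] at hle
          have h2 := hj1 _ _ (hom u v huv)
          have h3 : (j (φ u) (φ v) : ℝ) + j (φ v) (φ u) = t := by exact_mod_cast h2
          have h5 : (0 : ℝ) ≤ t / (2 * l) := by positivity
          simp only [hw] at hle
          linarith
        · have hvK : v ∈ K := by
            rcases Finset.mem_union.1 hv with h | h
            · exact h
            · exact absurd h hvC
          exact hcross u v huv huC hvK
      · have huK : u ∈ K := by
          rcases Finset.mem_union.1 hu with h | h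
          · exact h
          · exact absurd h huC
        have hvC : v ∈ C := by
          rcases Finset.mem_union.1 hv with h | h
          · exfalso
            apply he'.2.2
            intro x hx
            rcases Sym2.mem_iff.1 hx with rfl | rfl
            · exact huK
            · exact h
          · exact h
        rw [Sym2.eq_swap]
        exact hcross v u huv.symm hvC huK
  have hsum := Finset.sum_fiberwise_of_maps_to hmaps w
  have hlower : ((blockEdges F K C).card : ℝ) * ((t : ℝ) - t / (2 * l)) ≤ ∑ p ∈ P, w p := by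
    rw [← hsum, ← nsmul_eq_mul]
    exact Finset.card_nsmul_le_sum _ _ _ hfib
  exact le_trans hlower hupper

end Vale.Agent.Lib.P064
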