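import Vale.Agent.Lib.P064.Main

namespace Vale.Agent.Lib.P064

open Finset SimpleGraph Real

open scoped Classical

set_option linter.unusedSectionVars false

variable {V W : Type} [Fintype V] [Fintype W]

/-- Non-isolated vertices. -/
noncomputable def nonIso (F : SimpleGraph W) : Finset W :=
  Finset.univ.filter (fun a => ∃ b, F.Adj a b)

theorem card_nonIso_le (F : SimpleGraph W) : (nonIso F).card ≤ 2 * F.edgeSet.ncard := by
  rw [ncard_eq_edgeFinset_card, ← F.dart_card_eq_twice_card_edges]
  have h : nonIso F ⊆ (Finset.univ : Finset F.Dart).image (fun d => d.fst) := by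
    intro a ha
    obtain ⟨b, hb⟩ := (Finset.mem_filter.1 ha).2
    exact Finset.mem_image.2 ⟨⟨(a, b), hb⟩, Finset.mem_univ _, rfl⟩
  calc (nonIso F).card ≤ _ := Finset.card_le_card h
    _ ≤ _ := Finset.card_image_le
    _ = _ := Finset.card_univ

/-- The graph induced on the non-isolated vertices. -/
def coreGraph (F : SimpleGraph W) : SimpleGraph ↥(nonIso F) := F.comap (fun x => x.1)

theorem coreGraph_ncard (F : SimpleGraph W) : (coreGraph F).edgeSet.ncard = F.edgeSet.ncard := by
  have h : F.edgeSet = Sym2.map (fun x : ↥(nonIso F) => x.1) '' (coreGraph F).edgeSet := by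
    ext e
    induction e using Sym2.ind with
    | _ u v =>
      constructor
      · intro h
        have h' : F.Adj u v := h
        refine ⟨s(⟨u, Finset.mem_filter.2 ⟨Finset.mem_univ _, v, h'⟩⟩,
          ⟨v, Finset.mem_filter.2 ⟨Finset.mem_univ _, u, h'.symm⟩⟩), ?_, rfl⟩
        exact h'
      · rintro ⟨e', he', hee⟩
        induction e' using Sym2.ind with
        | _ u' v' =>
          have h1 : F.Adj u'.1 v'.1 := he'
          have h2 : s(u'.1, v'.1) = s(u, v) := hee
          rw [mem_edgeSet]
          rcases Sym2.eq_iff.1 h2 with ⟨rfl, rfl⟩ | ⟨rfl, rfl⟩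
          · exact h1
          · exact h1.symm
  rw [h, Set.ncard_image_of_injective _ (Sym2.map.injective Subtype.val_injective)]

/-- `n^k ≤ e^k n(n-1)…(n-k+1)` for `k ≤ n`. -/
theorem pow_le_exp_mul_descFactorial (m k : ℕ) :
    (((m + k : ℕ) : ℝ)) ^ k ≤ exp k * (((m + k).descFactorial k : ℕ) : ℝ) := by
  induction k with
  | zero => simp
  | succ k ih =>
    set N : ℕ := m + k with hN
    have hN1 : m + (k + 1) = N + 1 := by omega
    rw [hN1, Nat.succ_descFactorial_succ]
    have hkey : ((N + 1 : ℕ) : ℝ) ^ k ≤ exp 1 * ((N : ℕ) : ℝ) ^ k := by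
      rcases Nat.eq_zero_or_pos N with h0 | hpos
      · have hk0 : k = 0 := by omega
        subst hk0
        simp only [pow_zero, mul_one]
        exact one_le_exp (by norm_num)
      · have hNr : (0 : ℝ) < N := by exact_mod_cast hpos
        have h1 : ((N + 1 : ℕ) : ℝ) = N * (1 + 1 / (N : ℝ)) := by
          push_cast
          field_simp
        rw [h1, mul_pow]
        have h2 : (1 + 1 / (N : ℝ)) ^ k ≤ exp 1 := by
          have h3 : 1 + 1 / (N : ℝ) ≤ exp (1 / (N : ℝ)) := by
            have := Real.add_one_le_exp (1 / (N : ℝ))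
            linarith
          have h4 : (1 + 1 / (N : ℝ)) ^ k ≤ exp (1 / (N : ℝ)) ^ k :=
            pow_le_pow_left₀ (by positivity) h3 k
          rw [← Real.exp_nat_mul] at h4
          refine h4.trans (Real.exp_le_exp.2 ?_)
          have hkN : (k : ℝ) ≤ N := by
            have : k ≤ N := by omega
            exact_mod_cast this
          rw [mul_one_div, div_le_one hNr]
          exact hkN
        have h5 : (0 : ℝ) ≤ (N : ℝ) ^ k := by positivity
        calc (N : ℝ) ^ k * (1 + 1 / (N : ℝ)) ^ k ≤ (N : ℝ) ^ k * exp 1 :=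
              mul_le_mul_of_nonneg_left h2 h5
          _ = exp 1 * (N : ℝ) ^ k := mul_comm _ _
    have hexp : exp ((k + 1 : ℕ) : ℝ) = exp 1 * exp (k : ℝ) := by
      rw [← Real.exp_add]
      congr 1
      push_cast
      ring
    have hN0 : (0 : ℝ) ≤ ((N + 1 : ℕ) : ℝ) := Nat.cast_nonneg _
    calc ((N + 1 : ℕ) : ℝ) ^ (k + 1) = ((N + 1 : ℕ) : ℝ) * ((N + 1 : ℕ) : ℝ) ^ k := pow_succ' _ _
      _ ≤ ((N + 1 : ℕ) : ℝ) * (exp 1 * ((N : ℕ) : ℝ) ^ k) :=
          mul_le_mul_of_nonneg_left hkey hN0
      _ ≤ ((N + 1 : ℕ) : ℝ) * (exp 1 * (exp k * ((N.descFactorial k : ℕ) : ℝ))) := by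
          refine mul_le_mul_of_nonneg_left (mul_le_mul_of_nonneg_left ih (exp_pos _).le) hN0
      _ = exp ((k + 1 : ℕ) : ℝ) * (((N + 1) * N.descFactorial k : ℕ) : ℝ) := by
          rw [hexp]
          push_cast
          ring

theorem mem_univ_any {α : Type} (i : Fintype α) (x : α) : x ∈ @Finset.univ α i :=
  @Finset.mem_univ α i x

/-- Extending an embedding to the isolated vertices. -/
theorem labelled_le_core (H : SimpleGraph V) (F : SimpleGraph W) :
    H.labelledCopyCount F ≤ H.labelledCopyCount (coreGraph F) *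
      (Fintype.card V - (nonIso F).card).descFactorial (Fintype.card W - (nonIso F).card) := by
  rw [labelled_eq_card_fun, labelled_eq_card_fun]
  set S := nonIso F with hS
  set Emb : Finset (W → V) := (Finset.univ : Finset (W → V)).filter
    (fun φ => Function.Injective φ ∧ ∀ a b, F.Adj a b → H.Adj (φ a) (φ b)) with hEmb
  let res : (W → V) → (↥S → V) := fun φ x => φ x.1
  have himg : ∀ ψ ∈ Emb.image res, Function.Injective ψ ∧
      ∀ a b, (coreGraph F).Adj a b → H.Adj (ψ a) (ψ b) := by
    intro ψ hψ
    obtain ⟨φ, hφ, rfl⟩ := Finset.mem_image.1 hψ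
    have hφ' := (Finset.mem_filter.1 hφ).2
    refine ⟨?_, ?_⟩
    · intro x y hxy
      exact Subtype.ext (hφ'.1 hxy)
    · intro a b hab
      exact hφ'.2 a.1 b.1 hab
  have hfib : ∀ ψ ∈ Emb.image res, (Emb.filter (fun φ => res φ = ψ)).card ≤
      (Fintype.card V - S.card).descFactorial (Fintype.card W - S.card) := by
    intro ψ hψ
    have hψinj : Function.Injective ψ := (himg ψ hψ).1
    let I := {x : W // ¬ x ∈ S}
    let A := {y : V // ¬ y ∈ Set.range ψ}
    have hcardI : Fintype.card I = Fintype.card W - S.card := by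
      have := Fintype.card_subtype_compl (fun x : W => x ∈ S)
      rw [Fintype.card_coe] at this
      exact this
    have hcardA : Fintype.card A = Fintype.card V - S.card := by
      have h1 := Fintype.card_subtype_compl (fun y : V => y ∈ Set.range ψ)
      have h2 : Fintype.card {y : V // y ∈ Set.range ψ} = S.card := by
        have h3 := Set.card_range_of_injective hψinj
        rw [Fintype.card_coe] at h3
        exact h3
      rw [h2] at h1
      exact h1
    have hle : Fintype.card ↥(Emb.filter (fun φ => res φ = ψ)) ≤ Fintype.card (I ↪ A) := by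
      refine Fintype.card_le_of_injective
        (fun φ => ⟨fun x => ⟨φ.1 x.1, ?_⟩, ?_⟩) ?_
      · rintro ⟨y, hy⟩
        have hφ := Finset.mem_filter.1 φ.2
        have h1 : φ.1 y.1 = ψ y := congrFun hφ.2 y
        have h2 : φ.1 y.1 = φ.1 x.1 := h1.trans hy
        have h3 := (Finset.mem_filter.1 hφ.1).2.1 h2
        exact x.2 (h3 ▸ y.2)
      · intro x x' hxx
        have h1 : φ.1 x.1 = φ.1 x'.1 := congrArg Subtype.val hxx
        exact Subtype.ext ((Finset.mem_filter.1 (Finset.mem_filter.1 φ.2).1).2.1 h1)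
      · intro φ φ' hφφ
        apply Subtype.ext
        funext x
        by_cases hx : x ∈ S
        · have h1 := (Finset.mem_filter.1 φ.2).2
          have h2 := (Finset.mem_filter.1 φ'.2).2
          have h3 : res φ.1 = res φ'.1 := h1.trans h2.symm
          exact congrFun h3 ⟨x, hx⟩
        · have h1 := DFunLike.congr_fun hφφ ⟨x, hx⟩
          exact congrArg Subtype.val h1
    rw [Fintype.card_coe, Fintype.card_embedding_eq, hcardI, hcardA] at hle
    exact hle
  have key : Emb.card ≤ (Emb.image res).card *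
      (Fintype.card V - S.card).descFactorial (Fintype.card W - S.card) :=
    calc Emb.card ≤ _ * (Emb.image res).card := Finset.card_le_mul_card_image _ _ hfib
      _ = (Emb.image res).card * _ := mul_comm _ _
  refine key.trans (Nat.mul_le_mul_right _ (Finset.card_le_card ?_))
  intro ψ hψ
  exact Finset.mem_filter.2 ⟨mem_univ_any _ ψ, himg ψ hψ⟩

end Vale.Agent.Lib.P064
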