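import Vale.Agent.Lib.P064.Final1

namespace Vale.Agent.Lib.P064

open Finset SimpleGraph Real

open scoped Classical

set_option linter.unusedSectionVars false

variable {V W : Type} [Fintype V] [Fintype W]

/-- The count with the vertex factor absorbed. -/
theorem labelled_le_desc {H : SimpleGraph V} (F : SimpleGraph W) {n : ℕ} {q : ℝ}
    (hyp : HypCount H n q) (hn : 2 ≤ n) (hq0 : 0 < q) (hqe : q ≤ exp (-1))
    (hV : Fintype.card V ≤ n) :
    (H.labelledCopyCount F : ℝ) ≤ (n.descFactorial (Fintype.card W) : ℝ) *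
      (256 * exp 8 * (log n + 1) * q) ^ F.edgeSet.ncard := by
  have hn0 : (0 : ℝ) < n := by
    have : 0 < n := by omega
    exact_mod_cast this
  set lg : ℝ := log n with hlg
  have hlg0 : 0 ≤ lg := log_natCast_nonneg n
  by_cases hW : Fintype.card W ≤ Fintype.card V
  swap
  · have h1 : H.labelledCopyCount F = 0 := by
      rw [labelled_eq_card_fun, Finset.card_eq_zero, Finset.filter_eq_empty_iff]
      intro φ _ h
      exact hW (Fintype.card_le_of_injective φ h.1)
    rw [h1, Nat.cast_zero]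
    positivity
  set S := nonIso F with hS
  set k₀ := S.card with hk₀
  set r := F.edgeSet.ncard with hr
  have hk₀r : k₀ ≤ 2 * r := card_nonIso_le F
  have hk₀W : k₀ ≤ Fintype.card W := Finset.card_le_univ S
  have hk₀n : k₀ ≤ n := hk₀W.trans (hW.trans hV)
  have h1 := labelled_le_core H F
  have h2 := labelled_le (coreGraph F) hyp hn hq0 hqe
  rw [coreGraph_ncard, Fintype.card_coe] at h2
  have h3 : (Fintype.card V - k₀).descFactorial (Fintype.card W - k₀)
      ≤ (n - k₀).descFactorial (Fintype.card W - k₀) :=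
    Nat.descFactorial_le _ (Nat.sub_le_sub_right hV _)
  have h4 : (n - k₀).descFactorial (Fintype.card W - k₀) * n.descFactorial k₀
      = n.descFactorial (Fintype.card W) := Nat.descFactorial_mul_descFactorial hk₀W
  have h5 : (n : ℝ) ^ k₀ ≤ exp k₀ * ((n.descFactorial k₀ : ℕ) : ℝ) := by
    have := pow_le_exp_mul_descFactorial (n - k₀) k₀
    rwa [Nat.sub_add_cancel hk₀n] at this
  set D : ℝ := (((n - k₀).descFactorial (Fintype.card W - k₀) : ℕ) : ℝ) with hD
  set d₀ : ℝ := ((n.descFactorial k₀ : ℕ) : ℝ) with hd₀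
  have hD0 : 0 ≤ D := Nat.cast_nonneg _
  have hd₀0 : 0 ≤ d₀ := Nat.cast_nonneg _
  set Q : ℝ := 4 * ((4 * lg + 4) * q) with hQ
  have hQ0 : 0 ≤ Q := by positivity
  have hc1 : (1 : ℝ) ≤ 4 * exp 4 := by
    have : (1 : ℝ) ≤ exp 4 := one_le_exp (by norm_num)
    linarith
  have h6 : (H.labelledCopyCount F : ℝ) ≤ (H.labelledCopyCount (coreGraph F) : ℝ) * D := by
    have h7 : H.labelledCopyCount F ≤ H.labelledCopyCount (coreGraph F) *
        (n - k₀).descFactorial (Fintype.card W - k₀) :=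
      h1.trans (Nat.mul_le_mul_left _ h3)
    rw [hD]
    exact_mod_cast h7
  have h8 : (4 * exp 3 * n) ^ k₀ ≤ (4 * exp 4) ^ k₀ * d₀ := by
    have h9 : exp (k₀ : ℝ) = exp 1 ^ k₀ := by
      rw [← Real.exp_nat_mul, mul_one]
    have h10 : (4 * exp 3 * n) ^ k₀ = (4 * exp 3) ^ k₀ * (n : ℝ) ^ k₀ := mul_pow _ _ _
    have h11 : (4 * exp 4) ^ k₀ = (4 * exp 3) ^ k₀ * exp 1 ^ k₀ := by
      rw [← mul_pow]
      congr 1
      rw [mul_assoc, ← Real.exp_add]
      norm_num
    rw [h10, h11, mul_assoc]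
    refine mul_le_mul_of_nonneg_left ?_ (by positivity)
    rw [← h9]
    exact h5
  have h12 : (4 * exp 4) ^ k₀ ≤ (4 * exp 4) ^ (2 * r) := pow_le_pow_right₀ hc1 hk₀r
  have h13 : ((4 * exp 4) ^ (2 * r)) * Q ^ r = (256 * exp 8 * (lg + 1) * q) ^ r := by
    rw [pow_mul, ← mul_pow]
    congr 1
    have : exp 8 = exp 4 * exp 4 := by
      rw [← Real.exp_add]
      norm_num
    rw [this, hQ]
    ring
  have h14 : (n.descFactorial (Fintype.card W) : ℝ) = D * d₀ := by
    rw [hD, hd₀, ← h4]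
    push_cast
    ring
  rw [h14]
  calc (H.labelledCopyCount F : ℝ) ≤ (H.labelledCopyCount (coreGraph F) : ℝ) * D := h6
    _ ≤ ((4 * exp 3 * n) ^ k₀ * Q ^ r) * D := mul_le_mul_of_nonneg_right h2 hD0
    _ ≤ (((4 * exp 4) ^ k₀ * d₀) * Q ^ r) * D := by
        refine mul_le_mul_of_nonneg_right (mul_le_mul_of_nonneg_right h8 (by positivity)) hD0
    _ ≤ (((4 * exp 4) ^ (2 * r) * d₀) * Q ^ r) * D := by
        refine mul_le_mul_of_nonneg_right (mul_le_mul_of_nonneg_right
          (mul_le_mul_of_nonneg_right h12 hd₀0) (by positivity)) hD0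
    _ = D * d₀ * (((4 * exp 4) ^ (2 * r)) * Q ^ r) := by ring
    _ = D * d₀ * (256 * exp 8 * (lg + 1) * q) ^ r := by rw [h13]

/-- The number of labelled copies in the complete graph. -/
theorem labelled_top_eq (n : ℕ) (F : SimpleGraph W) :
    (⊤ : SimpleGraph (Fin n)).labelledCopyCount F = n.descFactorial (Fintype.card W) := by
  rw [labelled_eq_card_filter]
  have h5 : ((Finset.univ : Finset (W ↪ Fin n)).filter
      (fun g => ∀ a b, F.Adj a b → (⊤ : SimpleGraph (Fin n)).Adj (g a) (g b)))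
      = Finset.univ := by
    apply Finset.filter_true_of_mem
    intro g _ a b hab
    rw [top_adj]
    exact fun h => hab.ne (g.injective h)
  rw [h5, Finset.card_univ, Fintype.card_embedding_eq, Fintype.card_fin]

theorem labelled_le_top (H : SimpleGraph V) (F : SimpleGraph W) {n : ℕ}
    (hV : Fintype.card V ≤ n) :
    H.labelledCopyCount F ≤ n.descFactorial (Fintype.card W) := by
  rw [labelled_eq_card_filter]
  calc _ ≤ (Finset.univ : Finset (W ↪ V)).card := Finset.card_filter_le _ _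
    _ = (Fintype.card V).descFactorial (Fintype.card W) := by
      rw [Finset.card_univ, Fintype.card_embedding_eq]
    _ ≤ _ := Nat.descFactorial_le _ hV

/-- Trivial comparison with the complete graph. -/
theorem copy_le_top (H : SimpleGraph V) (F : SimpleGraph W) {n : ℕ}
    (hV : Fintype.card V ≤ n) :
    H.copyCount F ≤ (⊤ : SimpleGraph (Fin n)).copyCount F := by
  have := finite_aut F
  let _ : Fintype (F ≃g F) := Fintype.ofFinite _
  have haut : 0 < Fintype.card (F ≃g F) := Fintype.card_pos_iff.2 ⟨Iso.refl⟩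
  have h1 := labelled_le_top H F hV
  rw [← labelled_top_eq, labelled_eq_copy_mul_aut H F,
    labelled_eq_copy_mul_aut (⊤ : SimpleGraph (Fin n)) F] at h1
  exact Nat.le_of_mul_le_mul_right h1 haut

/-- The main comparison. -/
theorem copy_le_of_hyp {H : SimpleGraph V} (F : SimpleGraph W) {n : ℕ} {q : ℝ}
    (hyp : HypCount H n q) (hn : 2 ≤ n) (hq0 : 0 < q) (hqe : q ≤ exp (-1))
    (hV : Fintype.card V ≤ n) :
    (H.copyCount F : ℝ) ≤ ((⊤ : SimpleGraph (Fin n)).copyCount F : ℝ) *
      (256 * exp 8 * (log n + 1) * q) ^ F.edgeSet.ncard := by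
  have := finite_aut F
  let _ : Fintype (F ≃g F) := Fintype.ofFinite _
  have haut : 0 < Fintype.card (F ≃g F) := Fintype.card_pos_iff.2 ⟨Iso.refl⟩
  have haut' : (0 : ℝ) < (Fintype.card (F ≃g F) : ℝ) := by exact_mod_cast haut
  have h1 := labelled_le_desc F hyp hn hq0 hqe hV
  rw [← labelled_top_eq, labelled_eq_copy_mul_aut H F,
    labelled_eq_copy_mul_aut (⊤ : SimpleGraph (Fin n)) F] at h1
  push_cast at h1
  have h2 : (H.copyCount F : ℝ) * (Fintype.card (F ≃g F) : ℝ)
      ≤ (((⊤ : SimpleGraph (Fin n)).copyCount F : ℝ) *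
        (256 * exp 8 * (log n + 1) * q) ^ F.edgeSet.ncard) * (Fintype.card (F ≃g F) : ℝ) := by
    calc _ ≤ _ := h1
      _ = _ := by ring
  exact le_of_mul_le_mul_right h2 haut'

/-- Copy counts depend only on the isomorphism type. -/
theorem copyCount_iso {X X' Y : Type} [Fintype Y] (G : SimpleGraph Y) {A : SimpleGraph X}
    {A' : SimpleGraph X'} (e : A ≃g A') : G.copyCount A = G.copyCount A' := by
  unfold copyCount
  congr 1
  ext S
  simp only [Finset.mem_filter, Finset.mem_univ, true_and]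
  exact ⟨fun ⟨f⟩ => ⟨e.symm.trans f⟩, fun ⟨f⟩ => ⟨e.trans f⟩⟩

theorem ncard_iso {X X' : Type} {A : SimpleGraph X} {A' : SimpleGraph X'} (e : A ≃g A') :
    A.edgeSet.ncard = A'.edgeSet.ncard := by
  rw [← Nat.card_coe_set_eq, ← Nat.card_coe_set_eq]
  exact Nat.card_congr e.mapEdgeSet

/-- The hypothesis of the counting theorem at density `2 q₀`. -/
theorem hyp_of_mem {H : SimpleGraph V} {n : ℕ} {q₀ : ℝ}
    (h : ∀ F : H.Subgraph, (1 / 2 : ℝ) ≤ expCopies n q₀ F.coe) : HypCount H n (2 * q₀) := by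
  intro X _ A f
  have h1 := h f.toSubgraph
  rw [expCopies_eq, ← ncard_iso f.isoToSubgraph, ← copyCount_iso _ f.isoToSubgraph] at h1
  set c := (⊤ : SimpleGraph (Fin n)).copyCount A with hc
  set r := A.edgeSet.ncard with hr
  rcases Nat.eq_zero_or_pos r with h0 | hpos
  · rw [h0, pow_zero, mul_one] at h1 ⊢
    have h2 : 0 < c := by
      by_contra h3
      have h4 : c = 0 := by omega
      rw [h4, Nat.cast_zero] at h1
      norm_num at h1
    exact_mod_cast h2
  · have h2 : (2 : ℝ) ≤ 2 ^ r := by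
      calc (2 : ℝ) = 2 ^ 1 := by norm_num
        _ ≤ 2 ^ r := pow_le_pow_right₀ (by norm_num) hpos
    have h3 : (c : ℝ) * (2 * q₀) ^ r = 2 ^ r * ((c : ℝ) * q₀ ^ r) := by
      rw [mul_pow]
      ring
    rw [h3]
    nlinarith

end Vale.Agent.Lib.P064
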