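import Vale.Agent.Lib.P064.Final2

namespace Vale.Agent.Lib.P064

open Finset SimpleGraph Real

open scoped Classical

set_option linter.unusedSectionVars false

/-- The main theorem in the variables of the problem. -/
theorem main_thm : ∃ C : ℝ, 0 < C ∧ ∀ n : ℕ, 2 ≤ n → ∀ (V : Type) [Fintype V] (H : SimpleGraph V),
    Fintype.card V ≤ n →
      (∀ q ∈ pESet n H, ∀ F : H.Subgraph,
        (H.copyCount F.coe : ℝ) ≤ expCopies n (min 1 (C * log n * q)) F.coe) ∧
      pTildeE n H ≤ C * log n * pE n H := by
  refine ⟨1536 * exp 8, by positivity, ?_⟩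
  intro n hn V _ H hV
  set C : ℝ := 1536 * exp 8 with hC
  have hCpos : 0 < C := by positivity
  set lg : ℝ := log n with hlg
  have hlg2 : (1 / 2 : ℝ) ≤ lg := by
    have h1 : log 2 ≤ lg := by
      apply Real.log_le_log (by norm_num)
      exact_mod_cast hn
    have h2 := Real.log_two_gt_d9
    linarith
  have hlg0 : 0 < lg := by linarith
  have hCl : 0 < C * lg := by positivity
  have hmain : ∀ q ∈ pESet n H, ∀ F : H.Subgraph,
      (H.copyCount F.coe : ℝ) ≤ expCopies n (min 1 (C * lg * q)) F.coe := by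
    intro q hq F
    rw [expCopies_eq]
    obtain ⟨hq0, hq1, hqF⟩ := hq
    have hc : (H.copyCount F.coe : ℝ) ≤ ((⊤ : SimpleGraph (Fin n)).copyCount F.coe : ℝ) := by
      exact_mod_cast copy_le_top H F.coe hV
    have hc0 : (0 : ℝ) ≤ ((⊤ : SimpleGraph (Fin n)).copyCount F.coe : ℝ) := Nat.cast_nonneg _
    by_cases h1 : 1 ≤ C * lg * q
    · rw [min_eq_left h1, one_pow, mul_one]
      exact hc
    · have h1' : C * lg * q < 1 := not_le.1 h1
      rw [min_eq_right h1'.le]
      rcases eq_or_lt_of_le hq0 with h0 | hpos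
      · have h2 := hqF F
        rw [expCopies_eq, ← h0] at h2
        have hr : F.coe.edgeSet.ncard = 0 := by
          by_contra hne
          rw [zero_pow hne, mul_zero] at h2
          norm_num at h2
        rw [hr, pow_zero, mul_one]
        exact hc
      · have hexp1 : (1 : ℝ) ≤ exp 1 := one_le_exp (by norm_num)
        have he8 : exp 1 ≤ exp 8 := Real.exp_le_exp.2 (by norm_num)
        have hqe : 2 * q ≤ exp (-1) := by
          rw [Real.exp_neg, ← one_div, le_div_iff₀ (exp_pos 1)]
          have h3 : 2 * exp 1 ≤ C * lg := by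
            rw [hC]
            nlinarith [exp_pos (8 : ℝ)]
          nlinarith
        have h2 := copy_le_of_hyp F.coe (hyp_of_mem hqF) hn (by positivity) hqe hV
        refine h2.trans (mul_le_mul_of_nonneg_left ?_ hc0)
        refine pow_le_pow_left₀ (by positivity) ?_ _
        have h3 : 256 * exp 8 * (lg + 1) * (2 * q) = (512 * exp 8 * q) * (lg + 1) := by ring
        have h4 : C * lg * q = (512 * exp 8 * q) * (3 * lg) := by
          rw [hC]
          ring
        rw [h3, h4]
        exact mul_le_mul_of_nonneg_left (by linarith) (by positivity)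
  refine ⟨hmain, ?_⟩
  have hmem : ∀ q ∈ pESet n H, min 1 (C * lg * q) ∈ pTildeESet n H := by
    intro q hq
    refine ⟨le_min zero_le_one (mul_nonneg hCl.le hq.1), min_le_left _ _, fun F => ?_⟩
    have h1 := hmain q hq F
    have h2 : (0 : ℝ) ≤ (H.copyCount F.coe : ℝ) := Nat.cast_nonneg _
    linarith
  have hbdd : BddBelow (pTildeESet n H) := ⟨0, fun _ hp => hp.1⟩
  have hne : (pESet n H).Nonempty := by
    refine ⟨1, zero_le_one, le_rfl, fun F => ?_⟩
    rw [expCopies_eq, one_pow, mul_one]
    have h1 : 0 < H.copyCount F.coe := by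
      rw [copyCount_pos]
      exact ⟨⟨F.hom, F.hom_injective⟩⟩
    have h2 := copy_le_top H F.coe hV
    have h3 : 1 ≤ (⊤ : SimpleGraph (Fin n)).copyCount F.coe := by omega
    have h4 : (1 : ℝ) ≤ ((⊤ : SimpleGraph (Fin n)).copyCount F.coe : ℝ) := by exact_mod_cast h3
    linarith
  have hle : pTildeE n H / (C * lg) ≤ pE n H := by
    apply le_csInf hne
    intro q hq
    rw [div_le_iff₀ hCl]
    have h1 : pTildeE n H ≤ min 1 (C * lg * q) := csInf_le hbdd (hmem q hq)
    have h2 : min 1 (C * lg * q) ≤ C * lg * q := min_le_right _ _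
    calc pTildeE n H ≤ C * lg * q := h1.trans h2
      _ = q * (C * lg) := by ring
  rw [div_le_iff₀ hCl] at hle
  calc pTildeE n H ≤ pE n H * (C * lg) := hle
    _ = C * lg * pE n H := by ring

end Vale.Agent.Lib.P064
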