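import Mathlib

namespace Vale.Agent.Lib.P064

open SimpleGraph Finset

set_option linter.unusedSectionVars false

variable {V : Type} [Fintype V]

open scoped Classical

/-- Fractional Hakimi theorem, by Hall's theorem on `t` copies of each edge. -/
theorem exists_orientation (H : SimpleGraph V) (t D : ℕ)
    (hdens : ∀ T : Finset V,
      t * (H.edgeFinset.filter (fun e => ∀ v ∈ e, v ∈ T)).card ≤ D * T.card) :
    ∃ j : V → V → ℕ, (∀ y y', H.Adj y y' → j y y' + j y' y = t) ∧
      (∀ y, ∑ y' ∈ Finset.univ.filter (fun y' => H.Adj y y'), j y y' ≤ D) := by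
  -- Hall
  let ι := H.edgeSet × Fin t
  let tt : ι → Finset (V × Fin D) := fun x =>
    ((x.1.1.toFinset) ×ˢ (Finset.univ : Finset (Fin D)))
  have hall : ∀ s : Finset ι, s.card ≤ (s.biUnion tt).card := by
    intro s
    set T : Finset V := s.biUnion (fun x => x.1.1.toFinset) with hT
    have h1 : s.biUnion tt = T ×ˢ (Finset.univ : Finset (Fin D)) := by
      ext ⟨v, c⟩
      simp [tt, hT, Finset.mem_biUnion, Finset.mem_product]
    rw [h1, Finset.card_product, Finset.card_univ, Fintype.card_fin]
    -- count `s` by first coordinate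
    have h3 : s.card ≤ (H.edgeFinset.filter (fun e => ∀ v ∈ e, v ∈ T)).card * t := by
      have h4 : (s.image (fun x => (x.1.1))) ⊆ H.edgeFinset.filter (fun e => ∀ v ∈ e, v ∈ T) := by
        intro e he
        obtain ⟨x, hx, rfl⟩ := Finset.mem_image.1 he
        rw [Finset.mem_filter]
        refine ⟨?_, ?_⟩
        · rw [mem_edgeFinset]
          exact x.1.2
        · intro v hv
          rw [hT, Finset.mem_biUnion]
          exact ⟨x, hx, by simpa using hv⟩
      have h5 : s.card ≤ t * (s.image (fun x => (x.1.1))).card := by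
        refine Finset.card_le_mul_card_image _ _ ?_
        intro e _
        have : (s.filter (fun x => x.1.1 = e)).card ≤ (Finset.univ : Finset (Fin t)).card := by
          refine Finset.card_le_card_of_injOn (fun x => x.2) (fun _ _ => Finset.mem_coe.2 (Finset.mem_univ _)) ?_
          intro a ha b hb hab
          have ha' := (Finset.mem_filter.1 (Finset.mem_coe.1 ha)).2
          have hb' := (Finset.mem_filter.1 (Finset.mem_coe.1 hb)).2
          exact Prod.ext (Subtype.ext (ha'.trans hb'.symm)) hab
        simpa using this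
      calc s.card ≤ t * (s.image (fun x => (x.1.1))).card := h5
        _ ≤ t * (H.edgeFinset.filter (fun e => ∀ v ∈ e, v ∈ T)).card :=
            Nat.mul_le_mul_left _ (Finset.card_le_card h4)
        _ = _ := Nat.mul_comm _ _
    calc s.card ≤ (H.edgeFinset.filter (fun e => ∀ v ∈ e, v ∈ T)).card * t := h3
      _ = t * (H.edgeFinset.filter (fun e => ∀ v ∈ e, v ∈ T)).card := Nat.mul_comm _ _
      _ ≤ D * T.card := hdens T
      _ = T.card * D := Nat.mul_comm _ _
  obtain ⟨f, hfinj, hfmem⟩ := (Finset.all_card_le_biUnion_card_iff_exists_injective tt).1 hall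
  have hfmem' : ∀ x, (f x).1 ∈ x.1.1 := by
    intro x
    have := hfmem x
    simp only [tt, Finset.mem_product, Finset.mem_univ, and_true] at this
    simpa using this
  -- the count function
  let j : V → V → ℕ := fun y y' =>
    if h : H.Adj y y' then
      ((Finset.univ : Finset (Fin t)).filter
        (fun i => (f (⟨s(y, y'), h⟩, i)).1 = y)).card
    else 0
  refine ⟨j, ?_, ?_⟩
  · intro y y' h
    have hne : y ≠ y' := h.ne
    have hsym : s(y', y) = s(y, y') := Sym2.eq_swap
    simp only [j, dif_pos h, dif_pos h.symm]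
    have h1 : ((Finset.univ : Finset (Fin t)).filter
        (fun i => (f (⟨s(y', y), h.symm⟩, i)).1 = y'))
        = ((Finset.univ : Finset (Fin t)).filter
          (fun i => (f (⟨s(y, y'), h⟩, i)).1 = y')) := by
      ext i
      simp only [Finset.mem_filter, Finset.mem_univ, true_and]
      have : (⟨s(y', y), h.symm⟩ : H.edgeSet) = ⟨s(y, y'), h⟩ := Subtype.ext hsym
      rw [this]
    rw [h1]
    have h2 := Finset.card_filter_add_card_filter_not (s := (Finset.univ : Finset (Fin t)))
      (fun i => (f (⟨s(y, y'), h⟩, i)).1 = y)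
    have h3 : ((Finset.univ : Finset (Fin t)).filter
        (fun i => ¬ (f (⟨s(y, y'), h⟩, i)).1 = y))
        = ((Finset.univ : Finset (Fin t)).filter
          (fun i => (f (⟨s(y, y'), h⟩, i)).1 = y')) := by
      ext i
      simp only [Finset.mem_filter, Finset.mem_univ, true_and]
      have hm := hfmem' (⟨s(y, y'), h⟩, i)
      simp only [Sym2.mem_iff] at hm
      constructor
      · intro hn
        exact hm.resolve_left hn
      · intro he hy
        exact hne (hy.symm.trans he)
    rw [h3] at h2
    simpa using h2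
  · intro y
    have hN : ∀ y' ∈ Finset.univ.filter (fun y' => H.Adj y y'),
        j y y' = ((Finset.univ : Finset (Fin t)).filter
          (fun i => ∃ h : H.Adj y y', (f (⟨s(y, y'), h⟩, i)).1 = y)).card := by
      intro y' hy'
      have h : H.Adj y y' := (Finset.mem_filter.1 hy').2
      simp only [j, dif_pos h]
      congr 1
      ext i
      simp [h]
    rw [Finset.sum_congr rfl hN, ← Finset.card_sigma]
    have hD : (Finset.univ : Finset (Fin D)).card = D := by simp
    refine le_trans ?_ (le_of_eq hD)
    refine Finset.card_le_card_of_forall_subsingleton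
      (s := (Finset.univ.filter (fun y' => H.Adj y y')).sigma (fun y' =>
        (Finset.univ : Finset (Fin t)).filter
          (fun i => ∃ h : H.Adj y y', (f (⟨s(y, y'), h⟩, i)).1 = y)))
      (fun (p : (_ : V) × Fin t) c =>
        ∃ h : H.Adj y p.1, (f (⟨s(y, p.1), h⟩, p.2)).2 = c) ?_ ?_
    · rintro ⟨y', i⟩ hp
      have hp' := Finset.mem_sigma.1 hp
      obtain ⟨h, -⟩ := (Finset.mem_filter.1 hp'.2).2
      exact ⟨_, Finset.mem_univ _, h, rfl⟩
    · intro c _ p hp p' hp'
      obtain ⟨hp1, h, hc⟩ := hp
      obtain ⟨hp1', h', hc'⟩ := hp'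
      obtain ⟨h1, e1⟩ := (Finset.mem_filter.1 (Finset.mem_sigma.1 (Finset.mem_coe.1 hp1)).2).2
      obtain ⟨h2, e2⟩ := (Finset.mem_filter.1 (Finset.mem_sigma.1 (Finset.mem_coe.1 hp1')).2).2
      have hff : f (⟨s(y, p.1), h⟩, p.2) = f (⟨s(y, p'.1), h'⟩, p'.2) := by
        refine Prod.ext ?_ (hc.trans hc'.symm)
        exact e1.trans e2.symm
      have heq := hfinj hff
      have h3 : s(y, p.1) = s(y, p'.1) := congrArg (fun x : ι => (x.1 : Sym2 V)) heq
      have h4 : p.1 = p'.1 := by
        rcases Sym2.eq_iff.1 h3 with ⟨_, h5⟩ | ⟨h5, h6⟩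
        · exact h5
        · exact h6.trans h5
      have h6 : (p.2 : Fin t) = p'.2 := congrArg (fun x : ι => x.2) heq
      exact Sigma.ext h4 (heq_of_eq h6)

end Vale.Agent.Lib.P064
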