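import Vale.Agent.Lib.P064.Core
import Vale.Agent.Lib.P064.Orient

namespace Vale.Agent.Lib.P064

open Finset SimpleGraph Real

open scoped Classical

set_option linter.unusedSectionVars false

variable {V W : Type} [Fintype V] [Fintype W]

/-- The density bound implied by the hypothesis. -/
theorem density_of_hyp {H : SimpleGraph V} {n : ℕ} {q l : ℝ} (hyp : HypCount H n q)
    (hn : 1 ≤ n) (hq0 : 0 < q) (hq1 : q ≤ 1) (hql : q = exp (-l)) (T : Finset V) :
    ((inEdges H T).card : ℝ) * l ≤ (T.card : ℝ) * log n := by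
  have hn0 : (0 : ℝ) < n := by exact_mod_cast hn
  let A : SimpleGraph ↥T := H.comap (fun x : ↥T => x.1)
  let f : A.Copy H := ⟨⟨fun x => x.1, fun {x y} h => h⟩, Subtype.val_injective⟩
  have h1 := hyp A f
  have h2 : (inEdges H T).card ≤ A.edgeSet.ncard := by
    rw [ncard_eq_edgeFinset_card]
    have h3 : inEdges H T ⊆ A.edgeFinset.image (Sym2.map (fun x : ↥T => x.1)) := by
      intro e he
      have he' := Finset.mem_filter.1 he
      induction e using Sym2.ind with
      | _ u v =>
        have hu := he'.2 u (Sym2.mem_mk_left _ _)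
        have hv := he'.2 v (Sym2.mem_mk_right _ _)
        have huv : H.Adj u v := by
          have := he'.1
          rwa [mem_edgeFinset] at this
        refine Finset.mem_image.2 ⟨s(⟨u, hu⟩, ⟨v, hv⟩), ?_, rfl⟩
        rw [mem_edgeFinset]
        exact huv
    exact (Finset.card_le_card h3).trans Finset.card_image_le
  have h4 : q ^ A.edgeSet.ncard ≤ q ^ (inEdges H T).card :=
    pow_le_pow_of_le_one hq0.le hq1 h2
  have h5 : ((⊤ : SimpleGraph (Fin n)).copyCount A : ℝ) ≤ (n : ℝ) ^ T.card := by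
    have h6 := (copyCount_le_labelledCopyCount (G := (⊤ : SimpleGraph (Fin n))) (H := A)).trans
      (labelled_top_le n A)
    rw [Fintype.card_coe] at h6
    exact_mod_cast h6
  have h7 : (1 : ℝ) ≤ (n : ℝ) ^ T.card * q ^ (inEdges H T).card :=
    calc (1 : ℝ) ≤ ((⊤ : SimpleGraph (Fin n)).copyCount A : ℝ) * q ^ A.edgeSet.ncard := h1
      _ ≤ (n : ℝ) ^ T.card * q ^ (inEdges H T).card := by gcongr
  have h8 : (n : ℝ) ^ T.card * q ^ (inEdges H T).card
      = exp ((T.card : ℝ) * log n - (inEdges H T).card * l) := by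
    have h_n : (n : ℝ) ^ T.card = exp ((T.card : ℝ) * log n) := by
      rw [Real.exp_nat_mul, Real.exp_log hn0]
    have h_q : q ^ (inEdges H T).card = exp (-(((inEdges H T).card : ℝ) * l)) := by
      rw [hql, ← Real.exp_nat_mul]
      congr 1
      ring
    rw [h_n, h_q, ← Real.exp_add]
    congr 1
  rw [h8] at h7
  have h9 := Real.log_le_log one_pos h7
  rw [Real.log_one, Real.log_exp] at h9
  linarith

/-- Labelled copies as injective homomorphisms. -/
theorem labelled_eq_card_fun (H : SimpleGraph V) (F : SimpleGraph W) :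
    H.labelledCopyCount F = ((Finset.univ : Finset (W → V)).filter
      (fun φ => Function.Injective φ ∧ ∀ a b, F.Adj a b → H.Adj (φ a) (φ b))).card := by
  rw [labelled_eq_card_filter]
  refine Finset.card_bij (fun g _ => (g : W → V)) ?_ ?_ ?_
  · intro g hg
    exact Finset.mem_filter.2 ⟨Finset.mem_univ _, g.injective, (Finset.mem_filter.1 hg).2⟩
  · intro g _ g' _ h
    exact DFunLike.coe_injective h
  · intro φ hφ
    have hφ' := (Finset.mem_filter.1 hφ).2
    exact ⟨⟨φ, hφ'.1⟩, Finset.mem_filter.2 ⟨Finset.mem_univ _, hφ'.2⟩, rfl⟩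

/-- **Core counting theorem.** If every graph with a copy in `H` has expected count at least `1`
at density `q ≤ 1/e`, then for every graph `F` the number of injective homomorphisms from `F` to
`H` is at most `(4 e^3 n)^{v(F)} (4 (4 log n + 4) q)^{e(F)}`. -/
theorem labelled_le {H : SimpleGraph V} (F : SimpleGraph W) {n : ℕ} {q : ℝ}
    (hyp : HypCount H n q) (hn : 2 ≤ n) (hq0 : 0 < q) (hqe : q ≤ exp (-1)) :
    (H.labelledCopyCount F : ℝ) ≤
      (4 * exp 3 * n) ^ Fintype.card W * (4 * ((4 * log n + 4) * q)) ^ F.edgeSet.ncard := by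
  have hn1 : 1 ≤ n := by omega
  have hn0 : (0 : ℝ) < n := by exact_mod_cast hn1
  have hq1 : q ≤ 1 := hqe.trans (exp_le_one_iff.2 (by norm_num))
  set l : ℝ := -log q with hl
  have hql : q = exp (-l) := by
    rw [hl, neg_neg, Real.exp_log hq0]
  have hl1 : 1 ≤ l := by
    have := Real.log_le_log hq0 hqe
    rw [Real.log_exp] at this
    rw [hl]
    linarith
  have hl0 : 0 < l := by linarith
  set lg : ℝ := log n with hlg
  have hlg0 : 0 ≤ lg := log_natCast_nonneg n
  set t : ℕ := ⌈l⌉₊ with ht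
  have htl : l ≤ t := Nat.le_ceil l
  have ht0 : (0 : ℝ) < t := by linarith
  set Dt : ℕ := ⌈(t : ℝ) * lg / l⌉₊ with hDt
  have hDtle : (Dt : ℝ) ≤ t * lg / l + 1 :=
    (Nat.ceil_lt_add_one (by positivity)).le
  have hDtge : (t : ℝ) * lg / l ≤ Dt := Nat.le_ceil _
  have hdens : ∀ T : Finset V,
      t * (H.edgeFinset.filter (fun e => ∀ v ∈ e, v ∈ T)).card ≤ Dt * T.card := by
    intro T
    have h1 := density_of_hyp hyp hn1 hq0 hq1 hql T
    have h2 : ((inEdges H T).card : ℝ) ≤ (T.card : ℝ) * lg / l := by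
      rw [le_div_iff₀ hl0]
      exact h1
    have h3 : ((t : ℝ) * (inEdges H T).card) ≤ (Dt : ℝ) * T.card := by
      calc (t : ℝ) * (inEdges H T).card ≤ t * ((T.card : ℝ) * lg / l) := by gcongr
        _ = ((t : ℝ) * lg / l) * T.card := by ring
        _ ≤ (Dt : ℝ) * T.card := mul_le_mul_of_nonneg_right hDtge (Nat.cast_nonneg _)
    exact_mod_cast h3
  obtain ⟨j, hj1, hj2⟩ := exists_orientation H t Dt hdens
  -- arcs
  let arc : V → V → Prop := fun y y' => H.Adj y y' ∧ (t : ℝ) ≤ 2 * l * (j y y' : ℝ)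
  let out : V → Finset V := fun y => Finset.univ.filter (fun y' => arc y y')
  set D : ℕ := ⌊2 * lg + 2⌋₊ with hD
  have hDle : (D : ℝ) ≤ 2 * lg + 2 := Nat.floor_le (by positivity)
  have hout : ∀ y, (out y).card ≤ D := by
    intro y
    apply Nat.le_floor
    have hsub : out y ⊆ Finset.univ.filter (fun y' => H.Adj y y') := by
      intro y' hy'
      exact Finset.mem_filter.2 ⟨Finset.mem_univ _, (Finset.mem_filter.1 hy').2.1⟩
    have h1 : ((out y).card : ℝ) * ((t : ℝ) / (2 * l)) ≤ ∑ y' ∈ out y, (j y y' : ℝ) := by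
      rw [← nsmul_eq_mul]
      refine Finset.card_nsmul_le_sum _ _ _ ?_
      intro y' hy'
      have := (Finset.mem_filter.1 hy').2.2
      rw [div_le_iff₀ (by positivity)]
      linarith
    have h2 : ∑ y' ∈ out y, (j y y' : ℝ)
        ≤ ∑ y' ∈ Finset.univ.filter (fun y' => H.Adj y y'), (j y y' : ℝ) :=
      Finset.sum_le_sum_of_subset_of_nonneg hsub (fun _ _ _ => Nat.cast_nonneg _)
    have h3 : ∑ y' ∈ Finset.univ.filter (fun y' => H.Adj y y'), (j y y' : ℝ) ≤ Dt := by
      exact_mod_cast hj2 y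
    have h4 : ((out y).card : ℝ) * ((t : ℝ) / (2 * l)) ≤ t * lg / l + 1 := by linarith
    have h5 : ((t : ℝ) / (2 * l)) * ((out y).card : ℝ)
        ≤ ((t : ℝ) / (2 * l)) * (2 * lg + 2 * (l / t)) := by
      have : ((t : ℝ) / (2 * l)) * (2 * lg + 2 * (l / t)) = t * lg / l + 1 := by
        field_simp
      linarith
    have h6 := le_of_mul_le_mul_left h5 (by positivity)
    have h7 : l / t ≤ 1 := (div_le_one ht0).2 htl
    linarith
  -- patterns
  set Emb : Finset (W → V) := (Finset.univ : Finset (W → V)).filter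
    (fun φ => Function.Injective φ ∧ ∀ a b, F.Adj a b → H.Adj (φ a) (φ b)) with hEmb
  let Rel : (F.Dart → Bool) → W → W → Prop :=
    fun ρ a b => ∃ h : F.Adj a b, ρ ⟨(a, b), h⟩ = true
  let Pat : (F.Dart → Bool) → Finset (W → V) := fun ρ =>
    Emb.filter (fun φ => ∀ d : F.Dart, (ρ d = true ↔ arc (φ d.fst) (φ d.snd)))
  set B : ℝ := (4 * exp 3 * n) ^ Fintype.card W * ((4 * lg + 4) * q) ^ F.edgeSet.ncard with hB
  have hB0 : 0 ≤ B := by
    rw [hB]
    have hl4 : 0 ≤ 4 * lg + 4 := by linarith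
    positivity
  have hPat : ∀ ρ, ((Pat ρ).card : ℝ) ≤ B := by
    intro ρ
    have hS : BlockSetup H F n q l t Dt D j out (Rel ρ) (Pat ρ) :=
      { hyp := hyp
        hn := hn1
        hq0 := hq0
        hq1 := hq1
        hl := hl1
        hql := hql
        ht := htl
        hDt := hDtle
        hj1 := hj1
        hj2 := hj2
        hout := hout
        hD := hDle
        hRF := fun a b ⟨h, _⟩ => h
        hinj := fun φ hφ => (Finset.mem_filter.1 (Finset.mem_filter.1 hφ).1).2.1
        hom := fun φ hφ => (Finset.mem_filter.1 (Finset.mem_filter.1 hφ).1).2.2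
        harcout := by
          intro φ hφ a b ⟨h, hρ⟩
          have := ((Finset.mem_filter.1 hφ).2 ⟨(a, b), h⟩).1 hρ
          exact Finset.mem_filter.2 ⟨Finset.mem_univ _, this⟩
        harc := by
          intro φ hφ a b hab hnR
          have hH := (Finset.mem_filter.1 (Finset.mem_filter.1 hφ).1).2.2 a b hab
          have h1 : ¬ arc (φ a) (φ b) := by
            intro h2
            exact hnR ⟨hab, ((Finset.mem_filter.1 hφ).2 ⟨(a, b), hab⟩).2 h2⟩
          by_contra h3
          exact h1 ⟨hH, not_lt.1 h3⟩ }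
    rcases (Pat ρ).eq_empty_or_nonempty with hemp | ⟨φ₀, hφ₀⟩
    · rw [hemp, Finset.card_empty, Nat.cast_zero]
      exact hB0
    have h1 := count_closed hS _ ∅ rfl (fun x hx => absurd hx (Finset.notMem_empty x)) φ₀
    have h2 : (Pat ρ).filter (fun φ => ∀ x ∈ (∅ : Finset W), φ x = φ₀ x) = Pat ρ := by
      apply Finset.filter_true_of_mem
      intro φ _ x hx
      exact absurd hx (Finset.notMem_empty x)
    rw [h2] at h1
    have h3 : ((∅ : Finset W)ᶜ).card = Fintype.card W := by simp
    have h4 : (outEdges F (∅ : Finset W)).card = F.edgeSet.ncard := by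
      rw [ncard_eq_edgeFinset_card]
      congr 1
      unfold outEdges
      apply Finset.filter_true_of_mem
      intro e he h5
      have he' : e ∈ F.edgeSet := by
        rwa [mem_edgeFinset] at he
      induction e using Sym2.ind with
      | _ u v =>
        exact Finset.notMem_empty u (h5 u (Sym2.mem_mk_left _ _))
    rw [h3, h4] at h1
    exact h1
  -- union over the patterns
  have hcover : Emb ⊆ (Finset.univ : Finset (F.Dart → Bool)).biUnion Pat := by
    intro φ hφ
    refine Finset.mem_biUnion.2 ⟨fun d => decide (arc (φ d.fst) (φ d.snd)), Finset.mem_univ _, ?_⟩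
    refine Finset.mem_filter.2 ⟨hφ, fun d => ?_⟩
    simp only [decide_eq_true_eq]
  have hcard : ((Emb.card : ℕ) : ℝ) ≤ (Fintype.card (F.Dart → Bool) : ℝ) * B := by
    have h1 : Emb.card ≤ ((Finset.univ : Finset (F.Dart → Bool)).biUnion Pat).card :=
      Finset.card_le_card hcover
    have h2 : ((((Finset.univ : Finset (F.Dart → Bool)).biUnion Pat).card : ℕ) : ℝ)
        ≤ ∑ ρ ∈ (Finset.univ : Finset (F.Dart → Bool)), ((Pat ρ).card : ℝ) := by
      exact_mod_cast Finset.card_biUnion_le
    have h3 : ∑ ρ ∈ (Finset.univ : Finset (F.Dart → Bool)), ((Pat ρ).card : ℝ)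
        ≤ ∑ _ρ ∈ (Finset.univ : Finset (F.Dart → Bool)), B :=
      Finset.sum_le_sum (fun ρ _ => hPat ρ)
    rw [Finset.sum_const, Finset.card_univ, nsmul_eq_mul] at h3
    have h4 : ((Emb.card : ℕ) : ℝ)
        ≤ (((Finset.univ : Finset (F.Dart → Bool)).biUnion Pat).card : ℝ) := by
      exact_mod_cast h1
    linarith
  have hdarts : Fintype.card (F.Dart → Bool) = 4 ^ F.edgeSet.ncard := by
    rw [Fintype.card_fun, Fintype.card_bool, F.dart_card_eq_twice_card_edges,
      ncard_eq_edgeFinset_card, pow_mul]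
    norm_num
  rw [hdarts] at hcard
  rw [labelled_eq_card_fun]
  refine hcard.trans (le_of_eq ?_)
  rw [hB]
  have hpow : (4 * ((4 * lg + 4) * q)) ^ F.edgeSet.ncard
      = (4 : ℝ) ^ F.edgeSet.ncard * ((4 * lg + 4) * q) ^ F.edgeSet.ncard := mul_pow _ _ _
  rw [hpow]
  push_cast
  ring

end Vale.Agent.Lib.P064
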