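import Mathlib

namespace Vale.Agent.Lib.P064

open Finset

open scoped Classical

set_option linter.unusedSectionVars false

variable {V W : Type} [Fintype V] [Fintype W]

/-- Recording the values of `φ` on `S`. -/
noncomputable def res (S : Finset W) (φ : W → V) : W → Option V :=
  fun x => if x ∈ S then some (φ x) else none

theorem res_eq_iff {S : Finset W} {φ ψ : W → V} : res S φ = res S ψ ↔ ∀ x ∈ S, φ x = ψ x := by
  constructor
  · intro h x hx
    have := congrFun h x
    simp only [res, if_pos hx, Option.some.injEq] at this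
    exact this
  · intro h
    funext x
    by_cases hx : x ∈ S
    · simp only [res, if_pos hx, h x hx]
    · simp only [res, if_neg hx]

/-- All members of a family agreeing on `S` give one record. -/
theorem card_image_res_le_one {S : Finset W} {Φ : Finset (W → V)}
    (h : ∀ φ ∈ Φ, ∀ ψ ∈ Φ, ∀ x ∈ S, φ x = ψ x) : (Φ.image (res S)).card ≤ 1 := by
  rw [Finset.card_le_one]
  intro a ha b hb
  obtain ⟨φ, hφ, rfl⟩ := Finset.mem_image.1 ha
  obtain ⟨ψ, hψ, rfl⟩ := Finset.mem_image.1 hb
  exact res_eq_iff.2 (h φ hφ ψ hψ)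

/-- One more value costs at most `D` when it lies in a set of size at most `D` determined by
a recorded value. -/
theorem card_image_res_insert_le {S : Finset W} {u v : W} (hu : u ∈ S) {Φ : Finset (W → V)}
    {out : V → Finset V} {D : ℕ} (hout : ∀ y, (out y).card ≤ D)
    (hΦ : ∀ φ ∈ Φ, φ v ∈ out (φ u)) :
    (Φ.image (res (insert v S))).card ≤ D * (Φ.image (res S)).card := by
  classical
  set g : (W → Option V) → (W → Option V) := fun c x => if x ∈ S then c x else none with hg
  have hgres : ∀ φ : W → V, g (res (insert v S) φ) = res S φ := by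
    intro φ
    funext x
    by_cases hx : x ∈ S
    · simp [hg, res, hx]
    · simp [hg, res, hx]
  have himg : (Φ.image (res (insert v S))).image g = Φ.image (res S) := by
    rw [Finset.image_image]
    refine Finset.image_congr ?_
    intro φ _
    exact hgres φ
  rw [← himg]
  refine Finset.card_le_mul_card_image _ _ ?_
  intro a ha
  obtain ⟨c₀, hc₀, rfl⟩ := Finset.mem_image.1 ha
  obtain ⟨φ₀, hφ₀, rfl⟩ := Finset.mem_image.1 hc₀
  rw [hgres]
  refine le_trans ?_ (hout (φ₀ u))
  refine Finset.card_le_card_of_injOn (fun c => (c v).getD (φ₀ u)) ?_ ?_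
  · intro c hc
    have hc' := Finset.mem_filter.1 (Finset.mem_coe.1 hc)
    obtain ⟨φ, hφ, rfl⟩ := Finset.mem_image.1 hc'.1
    have hag : res S φ = res S φ₀ := by rw [← hgres φ]; exact hc'.2
    have hu' : φ u = φ₀ u := res_eq_iff.1 hag u hu
    have : res (insert v S) φ v = some (φ v) := by simp [res]
    simp only [this, Option.getD_some, Finset.mem_coe]
    rw [← hu']
    exact hΦ φ hφ
  · intro c hc c' hc' hcc'
    have hc1 := Finset.mem_filter.1 (Finset.mem_coe.1 hc)
    have hc2 := Finset.mem_filter.1 (Finset.mem_coe.1 hc')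
    obtain ⟨φ, hφ, rfl⟩ := Finset.mem_image.1 hc1.1
    obtain ⟨φ', hφ', rfl⟩ := Finset.mem_image.1 hc2.1
    have hag : res S φ = res S φ₀ := by rw [← hgres φ]; exact hc1.2
    have hag' : res S φ' = res S φ₀ := by rw [← hgres φ']; exact hc2.2
    have h1 : res (insert v S) φ v = some (φ v) := by simp [res]
    have h2 : res (insert v S) φ' v = some (φ' v) := by simp [res]
    simp only [h1, h2, Option.getD_some] at hcc'
    refine res_eq_iff.2 ?_
    intro x hx
    rcases Finset.mem_insert.1 hx with rfl | hx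
    · exact hcc'
    · rw [res_eq_iff.1 hag x hx, res_eq_iff.1 hag' x hx]

/-- Counting a family through its records. -/
theorem card_le_card_image_res_mul {S : Finset W} {Φ : Finset (W → V)} {B : ℝ}
    (hB : ∀ ψ : W → V, ((Φ.filter (fun φ => ∀ x ∈ S, φ x = ψ x)).card : ℝ) ≤ B) :
    (Φ.card : ℝ) ≤ ((Φ.image (res S)).card : ℝ) * B := by
  classical
  rw [Finset.card_eq_sum_card_image (res S) Φ]
  push_cast
  rw [← nsmul_eq_mul]
  refine Finset.sum_le_card_nsmul _ _ _ ?_
  intro c hc
  obtain ⟨φ₀, _, rfl⟩ := Finset.mem_image.1 hc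
  refine le_trans ?_ (hB φ₀)
  have : Φ.filter (fun φ => res S φ = res S φ₀) = Φ.filter (fun φ => ∀ x ∈ S, φ x = φ₀ x) := by
    ext φ
    simp only [Finset.mem_filter, res_eq_iff]
  rw [this]

end Vale.Agent.Lib.P064
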