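import Vale.Agent.Lib.P064.Density
import Vale.Agent.Lib.P064.Counting

namespace Vale.Agent.Lib.P064

open Finset SimpleGraph

open scoped Classical

set_option linter.unusedSectionVars false

variable {V W : Type} [Fintype V] [Fintype W]

/-- Adjacency of the sunflower graph: petals indexed by `ι`, copies of `C`, attached to `a`. -/
def sunAdj (F : SimpleGraph W) (a C : Finset W) (ι : Type) :
    (↥a ⊕ (ι × ↥C)) → (↥a ⊕ (ι × ↥C)) → Prop
  | .inl _, .inl _ => False
  | .inl z, .inr p => F.Adj z p.2
  | .inr p, .inl z => F.Adj p.2 z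
  | .inr p, .inr p' => p.1 = p'.1 ∧ F.Adj p.2 p'.2

/-- The sunflower graph. -/
def sunGraph (F : SimpleGraph W) (a C : Finset W) (ι : Type) : SimpleGraph (↥a ⊕ (ι × ↥C)) where
  Adj := sunAdj F a C ι
  symm := ⟨by
    rintro (z | p) (z' | p') h
    · exact h
    · exact (F.adj_comm _ _).1 h
    · exact (F.adj_comm _ _).1 h
    · exact ⟨h.1.symm, (F.adj_comm _ _).1 h.2⟩⟩
  loopless := ⟨by
    rintro (z | p) h
    · exact h
    · exact F.loopless.irrefl _ h.2⟩

/-- Permuting the petals. -/
def sunAut (F : SimpleGraph W) (a C : Finset W) (ι : Type) (π : Equiv.Perm ι) :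
    sunGraph F a C ι ≃g sunGraph F a C ι where
  toEquiv := Equiv.sumCongr (Equiv.refl _) (π.prodCongr (Equiv.refl _))
  map_rel_iff' := by
    rintro (z | p) (z' | p')
    · exact Iff.rfl
    · exact Iff.rfl
    · exact Iff.rfl
    · show (π p.1 = π p'.1 ∧ F.Adj p.2 p'.2) ↔ (p.1 = p'.1 ∧ F.Adj p.2 p'.2)
      rw [π.injective.eq_iff]

theorem factorial_le_card_aut (F : SimpleGraph W) (a C : Finset W) (ι : Type) [Fintype ι]
    (hC : C.Nonempty) [Fintype (sunGraph F a C ι ≃g sunGraph F a C ι)] :
    (Fintype.card ι).factorial ≤ Fintype.card (sunGraph F a C ι ≃g sunGraph F a C ι) := by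
  rw [← Fintype.card_perm]
  refine Fintype.card_le_of_injective (sunAut F a C ι) ?_
  intro π π' h
  ext i
  obtain ⟨c, hc⟩ := hC
  have := congrArg (fun σ : sunGraph F a C ι ≃g sunGraph F a C ι => σ (.inr (i, ⟨c, hc⟩))) h
  simp only [sunAut] at this
  have h2 : (π i, (⟨c, hc⟩ : ↥C)) = (π' i, ⟨c, hc⟩) := by
    simpa using this
  exact (Prod.ext_iff.1 h2).1

/-- Each petal carries a copy of the block edges. -/
theorem sun_edges (F : SimpleGraph W) (K C : Finset W)
    (ι : Type) [Fintype ι] (hC : C.Nonempty) :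
    Fintype.card ι * (blockEdges F K C).card
      ≤ (sunGraph F (attach F K C) C ι).edgeSet.ncard := by
  obtain ⟨c₀, hc₀⟩ := hC
  set a := attach F K C with ha
  let toX : ι → W → (↥a ⊕ (ι × ↥C)) := fun i w =>
    if h : w ∈ C then .inr (i, ⟨w, h⟩) else
      if h' : w ∈ a then .inl ⟨w, h'⟩ else .inr (i, ⟨c₀, hc₀⟩)
  let β : (↥a ⊕ (ι × ↥C)) → W := fun x =>
    match x with
    | .inl z => z.1
    | .inr p => p.2.1
  have hβ : ∀ i w, (w ∈ C ∨ w ∈ a) → β (toX i w) = w := by
    intro i w hw
    by_cases h : w ∈ C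
    · simp [toX, β, h]
    · have h' : w ∈ a := hw.resolve_left h
      simp [toX, β, h, h']
  have hend : ∀ e ∈ blockEdges F K C, ∀ w ∈ e, w ∈ C ∨ w ∈ a := by
    intro e he w hw
    have he' := Finset.mem_filter.1 he
    induction e using Sym2.ind with
    | _ u v =>
      have huv : F.Adj u v := by
        have := he'.1
        rwa [mem_edgeFinset] at this
      rcases Sym2.mem_iff.1 hw with rfl | rfl
      · by_cases hwC : w ∈ C
        · exact Or.inl hwC
        · right
          have hwK : w ∈ K := by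
            rcases Finset.mem_union.1 (he'.2.1 w (Sym2.mem_mk_left _ _)) with h | h
            · exact h
            · exact absurd h hwC
          have hvC : v ∈ C := by
            rcases Finset.mem_union.1 (he'.2.1 v (Sym2.mem_mk_right _ _)) with h | h
            · exfalso
              apply he'.2.2
              intro x hx
              rcases Sym2.mem_iff.1 hx with rfl | rfl
              · exact hwK
              · exact h
            · exact h
          exact Finset.mem_filter.2 ⟨hwK, v, hvC, huv⟩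
      · by_cases hwC : w ∈ C
        · exact Or.inl hwC
        · right
          have hwK : w ∈ K := by
            rcases Finset.mem_union.1 (he'.2.1 w (Sym2.mem_mk_right _ _)) with h | h
            · exact h
            · exact absurd h hwC
          have huC : u ∈ C := by
            rcases Finset.mem_union.1 (he'.2.1 u (Sym2.mem_mk_left _ _)) with h | h
            · exfalso
              apply he'.2.2
              intro x hx
              rcases Sym2.mem_iff.1 hx with rfl | rfl
              · exact h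
              · exact hwK
            · exact h
          exact Finset.mem_filter.2 ⟨hwK, u, huC, huv.symm⟩
  have hadj : ∀ i, ∀ e ∈ blockEdges F K C,
      Sym2.map (toX i) e ∈ (sunGraph F a C ι).edgeFinset := by
    intro i e he
    have he' := Finset.mem_filter.1 he
    have hE := hend e he
    induction e using Sym2.ind with
    | _ u v =>
      have huv : F.Adj u v := by
        have := he'.1
        rwa [mem_edgeFinset] at this
      rw [mem_edgeFinset, Sym2.map_mk, mem_edgeSet]
      have hu := hE u (Sym2.mem_mk_left _ _)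
      have hv := hE v (Sym2.mem_mk_right _ _)
      by_cases huC : u ∈ C <;> by_cases hvC : v ∈ C
      · simp only [toX, dif_pos huC, dif_pos hvC]
        exact ⟨rfl, huv⟩
      · have hv' : v ∈ a := hv.resolve_left hvC
        simp only [toX, dif_pos huC, dif_neg hvC, dif_pos hv']
        exact huv
      · have hu' : u ∈ a := hu.resolve_left huC
        simp only [toX, dif_neg huC, dif_pos hvC, dif_pos hu']
        exact huv
      · exfalso
        have hu' : u ∈ a := hu.resolve_left huC
        have hv' : v ∈ a := hv.resolve_left hvC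
        apply he'.2.2
        intro x hx
        rcases Sym2.mem_iff.1 hx with rfl | rfl
        · exact (Finset.mem_filter.1 hu').1
        · exact (Finset.mem_filter.1 hv').1
  have hmapβ : ∀ i, ∀ e ∈ blockEdges F K C, Sym2.map β (Sym2.map (toX i) e) = e := by
    intro i e he
    have hE := hend e he
    induction e using Sym2.ind with
    | _ u v =>
      simp only [Sym2.map_mk]
      rw [hβ i u (hE u (Sym2.mem_mk_left _ _)), hβ i v (hE v (Sym2.mem_mk_right _ _))]
  rw [ncard_eq_edgeFinset_card]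
  have hcard : Fintype.card ι * (blockEdges F K C).card
      = ((Finset.univ : Finset ι) ×ˢ blockEdges F K C).card := by
    rw [Finset.card_product, Finset.card_univ]
  rw [hcard]
  refine Finset.card_le_card_of_injOn (fun p => Sym2.map (toX p.1) p.2) ?_ ?_
  · intro p hp
    have hp' := Finset.mem_product.1 (Finset.mem_coe.1 hp)
    exact Finset.mem_coe.2 (hadj p.1 p.2 hp'.2)
  · rintro ⟨i, e⟩ hp ⟨i', e'⟩ hp' h
    have h1 := (Finset.mem_product.1 (Finset.mem_coe.1 hp)).2
    have h2 := (Finset.mem_product.1 (Finset.mem_coe.1 hp')).2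
    simp only at h h1 h2
    have he : e = e' := by
      have := congrArg (Sym2.map β) h
      rwa [hmapβ i e h1, hmapβ i' e' h2] at this
    subst he
    -- the petal index is determined
    have hex : ∃ c ∈ C, c ∈ e := by
      have h1' := Finset.mem_filter.1 h1
      by_contra hno
      push Not at hno
      apply h1'.2.2
      intro x hx
      rcases Finset.mem_union.1 (h1'.2.1 x hx) with h3 | h3
      · exact h3
      · exact absurd hx (hno x h3)
    obtain ⟨c, hc, hce⟩ := hex
    have hm : toX i c ∈ Sym2.map (toX i') e := by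
      rw [← h]
      exact Sym2.mem_map.2 ⟨c, hce, rfl⟩
    obtain ⟨w, hw, hwc⟩ := Sym2.mem_map.1 hm
    have hi : i = i' := by
      simp only [toX, dif_pos hc] at hwc
      by_cases hwC : w ∈ C
      · simp only [dif_pos hwC] at hwc
        simpa using (congrArg Prod.fst (Sum.inr.inj hwc)).symm
      · simp only [dif_neg hwC] at hwc
        split_ifs at hwc with h4
        simpa using (congrArg Prod.fst (Sum.inr.inj hwc)).symm
    rw [hi]


/-- The standing hypothesis: every graph with a copy in `H` has expected count at least `1`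
at density `q`. -/
def HypCount (H : SimpleGraph V) (n : ℕ) (q : ℝ) : Prop :=
  ∀ {X : Type} [Fintype X] (A : SimpleGraph X), A.Copy H →
    (1 : ℝ) ≤ ((⊤ : SimpleGraph (Fin n)).copyCount A : ℝ) * q ^ A.edgeSet.ncard

theorem labelled_top_le (n : ℕ) {X : Type} [Fintype X] (A : SimpleGraph X) :
    (⊤ : SimpleGraph (Fin n)).labelledCopyCount A ≤ n ^ Fintype.card X := by
  rw [labelled_eq_card_filter]
  calc _ ≤ (Finset.univ : Finset (X ↪ Fin n)).card := Finset.card_filter_le _ _
    _ = Fintype.card (X ↪ Fin n) := Finset.card_univ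
    _ = (Fintype.card (Fin n)).descFactorial (Fintype.card X) := Fintype.card_embedding_eq
    _ ≤ n ^ Fintype.card X := by
      rw [Fintype.card_fin]
      exact Nat.descFactorial_le_pow _ _

/-- The petal bound: a sunflower with `m` petals in `H` forces `m! ≤ n^|a| (n^s q^r)^m`. -/
theorem petal_bound {H : SimpleGraph V} {F : SimpleGraph W} {n : ℕ} {q : ℝ}
    (hyp : HypCount H n q) (hn : 1 ≤ n) (hq0 : 0 < q) (hq1 : q ≤ 1)
    {K C : Finset W} (hdisj : Disjoint K C) (hC : C.Nonempty)
    {𝓢 : Finset (W → V)} {ψ : W → V}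
    (hinj : ∀ φ ∈ 𝓢, Function.Injective φ)
    (hom : ∀ φ ∈ 𝓢, ∀ a b, F.Adj a b → H.Adj (φ a) (φ b))
    (hag : ∀ φ ∈ 𝓢, ∀ z ∈ K, φ z = ψ z)
    (hdis : ∀ φ ∈ 𝓢, ∀ φ' ∈ 𝓢, φ ≠ φ' → Disjoint (C.image φ) (C.image φ')) :
    ((𝓢.card).factorial : ℝ) ≤ (n : ℝ) ^ (attach F K C).card *
      ((n : ℝ) ^ C.card * q ^ (blockEdges F K C).card) ^ 𝓢.card := by
  have hn' : (1 : ℝ) ≤ n := by exact_mod_cast hn
  rcases 𝓢.eq_empty_or_nonempty with rfl | ⟨φ₀, hφ₀⟩
  · simp only [Finset.card_empty, Nat.factorial_zero, Nat.cast_one, pow_zero, mul_one]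
    exact one_le_pow₀ hn'
  set a := attach F K C with ha
  have haK : ∀ z ∈ a, z ∈ K := fun z hz => (Finset.mem_filter.1 hz).1
  have hCK : ∀ z, z ∈ K → z ∉ C := fun z hz hzC => Finset.disjoint_left.1 hdisj hz hzC
  let ι : Type := ↥𝓢
  let A := sunGraph F a C ι
  let toV : (↥a ⊕ (ι × ↥C)) → V := fun x =>
    match x with
    | .inl z => ψ z.1
    | .inr p => p.1.1 p.2.1
  have hhom : ∀ {x y}, A.Adj x y → H.Adj (toV x) (toV y) := by
    rintro (z | p) (z' | p') h
    · exact h.elim
    · have hz := haK z.1 z.2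
      have h1 := hom p'.1.1 p'.1.2 z.1 p'.2.1 h
      rwa [hag p'.1.1 p'.1.2 z.1 hz] at h1
    · have hz := haK z'.1 z'.2
      have h1 := hom p.1.1 p.1.2 p.2.1 z'.1 h
      rwa [hag p.1.1 p.1.2 z'.1 hz] at h1
    · have h1 : p.1 = p'.1 := h.1
      have h2 := hom p.1.1 p.1.2 p.2.1 p'.2.1 h.2
      show H.Adj (p.1.1 p.2.1) (p'.1.1 p'.2.1)
      rw [← h1]
      exact h2
  have hinjV : Function.Injective toV := by
    have hcross : ∀ (z : ↥a) (p : ι × ↥C), ψ z.1 ≠ p.1.1 p.2.1 := by
      intro z p h
      have hz := haK z.1 z.2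
      rw [← hag p.1.1 p.1.2 z.1 hz] at h
      have := hinj p.1.1 p.1.2 h
      exact hCK z.1 hz (this ▸ p.2.2)
    rintro (z | p) (z' | p') h
    · have h1 : ψ z.1 = ψ z'.1 := h
      rw [← hag φ₀ hφ₀ z.1 (haK z.1 z.2), ← hag φ₀ hφ₀ z'.1 (haK z'.1 z'.2)] at h1
      exact congrArg Sum.inl (Subtype.ext (hinj φ₀ hφ₀ h1))
    · exact absurd h (hcross z p')
    · exact absurd h.symm (hcross z' p)
    · have h1 : p.1.1 p.2.1 = p'.1.1 p'.2.1 := h
      by_cases hpp : p.1.1 = p'.1.1
      · have h2 : p.1 = p'.1 := Subtype.ext hpp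
        rw [hpp] at h1
        have h3 : p.2.1 = p'.2.1 := hinj p'.1.1 p'.1.2 h1
        exact congrArg Sum.inr (Prod.ext h2 (Subtype.ext h3))
      · exfalso
        have hd := hdis p.1.1 p.1.2 p'.1.1 p'.1.2 hpp
        rw [Finset.disjoint_left] at hd
        exact hd (Finset.mem_image_of_mem _ p.2.2) (h1 ▸ Finset.mem_image_of_mem _ p'.2.2)
  let f : A.Copy H := ⟨⟨toV, fun {x y} h => hhom h⟩, hinjV⟩
  have h1 := hyp A f
  have hcardι : Fintype.card ι = 𝓢.card := Fintype.card_coe 𝓢
  have hedges : 𝓢.card * (blockEdges F K C).card ≤ A.edgeSet.ncard := by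
    have := sun_edges F K C ι hC
    rwa [hcardι] at this
  have hqpow : q ^ A.edgeSet.ncard ≤ q ^ (𝓢.card * (blockEdges F K C).card) :=
    pow_le_pow_of_le_one hq0.le hq1 hedges
  have h2 : (1 : ℝ) ≤ ((⊤ : SimpleGraph (Fin n)).copyCount A : ℝ)
      * q ^ (𝓢.card * (blockEdges F K C).card) :=
    le_trans h1 (mul_le_mul_of_nonneg_left hqpow (Nat.cast_nonneg _))
  have hfin := finite_aut A
  let _ : Fintype (A ≃g A) := Fintype.ofFinite _
  have h3 := labelled_eq_copy_mul_aut (⊤ : SimpleGraph (Fin n)) A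
  have h4 : (𝓢.card).factorial ≤ Fintype.card (A ≃g A) := by
    have := factorial_le_card_aut F a C ι hC
    rw [hcardι] at this
    exact this
  have h5 := labelled_top_le n A
  have hcardX : Fintype.card (↥a ⊕ (ι × ↥C)) = a.card + 𝓢.card * C.card := by
    rw [Fintype.card_sum, Fintype.card_prod, hcardι, Fintype.card_coe, Fintype.card_coe]
  rw [hcardX] at h5
  have h6 : (((⊤ : SimpleGraph (Fin n)).copyCount A : ℝ)) * ((𝓢.card).factorial : ℝ)
      ≤ (n : ℝ) ^ (a.card + 𝓢.card * C.card) := by
    have h7 : (⊤ : SimpleGraph (Fin n)).copyCount A * (𝓢.card).factorial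
        ≤ n ^ (a.card + 𝓢.card * C.card) := by
      calc _ ≤ (⊤ : SimpleGraph (Fin n)).copyCount A * Fintype.card (A ≃g A) :=
            Nat.mul_le_mul_left _ h4
        _ = _ := h3.symm
        _ ≤ _ := h5
    exact_mod_cast h7
  have hqm : 0 ≤ q ^ (𝓢.card * (blockEdges F K C).card) := by positivity
  calc ((𝓢.card).factorial : ℝ)
      = 1 * ((𝓢.card).factorial : ℝ) := (one_mul _).symm
    _ ≤ (((⊤ : SimpleGraph (Fin n)).copyCount A : ℝ)
          * q ^ (𝓢.card * (blockEdges F K C).card)) * ((𝓢.card).factorial : ℝ) :=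
        mul_le_mul_of_nonneg_right h2 (Nat.cast_nonneg _)
    _ = (((⊤ : SimpleGraph (Fin n)).copyCount A : ℝ) * ((𝓢.card).factorial : ℝ))
          * q ^ (𝓢.card * (blockEdges F K C).card) := by ring
    _ ≤ (n : ℝ) ^ (a.card + 𝓢.card * C.card) * q ^ (𝓢.card * (blockEdges F K C).card) :=
        mul_le_mul_of_nonneg_right h6 hqm
    _ = (n : ℝ) ^ a.card * ((n : ℝ) ^ C.card * q ^ (blockEdges F K C).card) ^ 𝓢.card := by
        rw [mul_pow, ← pow_mul, ← pow_mul, pow_add]
        ring_nf

end Vale.Agent.Lib.P064
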